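import Vale.Agent.P075.Main

/-! Extension to almost-everywhere measurable inputs. -/

namespace Vale.Agent.P075

open MeasureTheory Set

theorem cube_eq (k : ℤ) (p q r : ℕ) : (nu k p).prod ((nu k q).prod (nu k r))
    = volume.restrict (dyI k p ×ˢ dyI k q ×ˢ dyI k r) := by
  unfold nu
  rw [Measure.prod_restrict, Measure.prod_restrict]
  rfl

theorem pr01 (k : ℤ) (p q r : ℕ) : MeasurePreserving (fun u : ℝ × ℝ × ℝ => (u.1, u.2.1))
    (volume.restrict (dyI k p ×ˢ dyI k q ×ˢ dyI k r)) (sqm k p q) := by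
  have h1 : MeasurePreserving Prod.fst ((nu k q).prod (nu k r))
      (ENNReal.ofReal (2 ^ k) • nu k q) := ⟨measurable_fst, by rw [Measure.map_fst_prod, nu_univ]⟩
  have := (MeasurePreserving.id (nu k p)).prod h1
  rw [Measure.prod_smul_right, cube_eq] at this
  rw [sqm_eq]
  exact this

theorem pr12 (k : ℤ) (p q r : ℕ) : MeasurePreserving (fun u : ℝ × ℝ × ℝ => (u.2.1, u.2.2))
    (volume.restrict (dyI k p ×ˢ dyI k q ×ˢ dyI k r)) (sqm k q r) := by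
  rw [← cube_eq, sqm_eq]
  exact ⟨measurable_snd, by
    rw [← nu_univ k p, ← Measure.map_snd_prod]⟩

theorem pr20 (k : ℤ) (p q r : ℕ) : MeasurePreserving (fun u : ℝ × ℝ × ℝ => (u.2.2, u.1))
    (volume.restrict (dyI k p ×ˢ dyI k q ×ˢ dyI k r)) (sqm k r p) := by
  have h1 : MeasurePreserving Prod.snd ((nu k q).prod (nu k r))
      (ENNReal.ofReal (2 ^ k) • nu k r) := ⟨measurable_snd, by rw [Measure.map_snd_prod, nu_univ]⟩
  have := (MeasurePreserving.id (nu k p)).prod h1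
  rw [Measure.prod_smul_right, cube_eq] at this
  rw [sqm_eq]
  exact ((Measure.measurePreserving_swap (μ := nu k p) (ν := nu k r)).smul_measure _).comp this

theorem ae_sqm {F G : ℝ × ℝ → ℝ} (h : F =ᵐ[quad] G) (k : ℤ) (p q : ℕ) : F =ᵐ[sqm k p q] G :=
  Measure.ae_smul_measure (ae_restrict_of_ae_restrict_of_subset (sq_subset k p q) h) _

theorem formL_congr {F₀ F₁ F₂ G₀ G₁ G₂ : ℝ × ℝ → ℝ} (h₀ : F₀ =ᵐ[quad] G₀) (h₁ : F₁ =ᵐ[quad] G₁)
    (h₂ : F₂ =ᵐ[quad] G₂) : formL F₀ F₁ F₂ = formL G₀ G₁ G₂ := by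
  ext k ⟨p, q, r⟩
  unfold formL
  congr 1
  refine integral_congr_ae ?_
  filter_upwards [(pr01 k p q r).quasiMeasurePreserving.ae_eq_comp (ae_sqm h₀ k p q),
    (pr12 k p q r).quasiMeasurePreserving.ae_eq_comp (ae_sqm h₁ k q r),
    (pr20 k p q r).quasiMeasurePreserving.ae_eq_comp (ae_sqm h₂ k r p)] with x e0 e1 e2
  simp only [Function.comp] at e0 e1 e2
  rw [e0, e1, e2]

variable {F₀ F₁ F₂ : ℝ × ℝ → ℝ}

theorem main_ae (h₀ : MemLp F₀ 3 quad) (h₁ : MemLp F₁ 3 quad) (h₂ : MemLp F₂ 3 quad) :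
    Summable (fun p : ℤ × XorTriple => |formL F₀ F₁ F₂ p.1 p.2.1|) ∧
    ∑' p : ℤ × XorTriple, |formL F₀ F₁ F₂ p.1 p.2.1| ≤ 129 *
      ((eLpNorm F₀ 3 quad).toReal * (eLpNorm F₁ 3 quad).toReal * (eLpNorm F₂ 3 quad).toReal) ∧
    (∀ k : ℤ, Summable fun n : XorTriple => formL F₀ F₁ F₂ k n.1) ∧
    ∀ (S : Finset ℤ) (ε : ℤ → ℝ), (∀ k, |ε k| ≤ 1) → |formD S ε F₀ F₁ F₂| ≤ 129 *
      ((eLpNorm F₀ 3 quad).toReal * (eLpNorm F₁ 3 quad).toReal * (eLpNorm F₂ 3 quad).toReal) := by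
  obtain ⟨G₀, m0, e0⟩ := h₀.1.aemeasurable
  obtain ⟨G₁, m1, e1⟩ := h₁.1.aemeasurable
  obtain ⟨G₂, m2, e2⟩ := h₂.1.aemeasurable
  have l0 := (memLp_congr_ae e0).1 h₀
  have l1 := (memLp_congr_ae e1).1 h₁
  have l2 := (memLp_congr_ae e2).1 h₂
  unfold formD
  rw [formL_congr e0 e1 e2, eLpNorm_congr_ae e0, eLpNorm_congr_ae e1, eLpNorm_congr_ae e2]
  exact ⟨(main_abs m0 m1 m2 l0 l1 l2).1, (main_abs m0 m1 m2 l0 l1 l2).2,
    (main_form m0 m1 m2 l0 l1 l2 ∅ 0 (by simp)).1,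
    fun S ε hε => (main_form m0 m1 m2 l0 l1 l2 S ε hε).2⟩

theorem memLp_of_bdd' {F : ℝ × ℝ → ℝ} (hm : AEMeasurable F quad) (hb : ∃ M : ℝ, ∀ y, |F y| ≤ M)
    (hc : HasCompactSupport F) : MemLp F 3 quad := by
  obtain ⟨M, hM⟩ := hb
  have : IsFiniteMeasureOnCompacts quad :=
    ⟨fun K hK => lt_of_le_of_lt (Measure.restrict_le_self K) hK.measure_lt_top⟩
  exact hc.memLp_of_bound hm.aestronglyMeasurable M (Filter.Eventually.of_forall hM)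

end Vale.Agent.P075
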