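import Mathlib.MeasureTheory.Integral.Bochner.Set
import Mathlib.MeasureTheory.Measure.Lebesgue.Basic
import Mathlib.MeasureTheory.Measure.Prod

/-! Definitions for the dyadic model of the triangular Hilbert form. -/

namespace Vale.Agent.P075

open MeasureTheory

/-- The dyadic interval `[2^k n, 2^k (n+1))`, of scale `k` and index `n`. -/
def dyI (k : ℤ) (n : ℕ) : Set ℝ := Set.Ico ((2 : ℝ) ^ k * n) ((2 : ℝ) ^ k * (n + 1))

/-- The Haar function `h_I = 1_(left half) - 1_(right half)` of `I = dyI k n`. -/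
noncomputable def haar (k : ℤ) (n : ℕ) (x : ℝ) : ℝ :=
  (Set.Ico ((2 : ℝ) ^ k * n) ((2 : ℝ) ^ k * (n + 1 / 2))).indicator 1 x -
    (Set.Ico ((2 : ℝ) ^ k * (n + 1 / 2)) ((2 : ℝ) ^ k * (n + 1))).indicator 1 x

/-- Index triples `(n₀, n₁, n₂)` whose bitwise XOR vanishes; they index `A_k` for every `k`. -/
def XorTriple : Type := {n : ℕ × ℕ × ℕ // n.1 ^^^ n.2.1 ^^^ n.2.2 = 0}

/-- The local form `L_I` for the triple of dyadic intervals of scale `k` and indices `n`. -/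
noncomputable def formL (F₀ F₁ F₂ : ℝ × ℝ → ℝ) (k : ℤ) (n : ℕ × ℕ × ℕ) : ℝ :=
  (2 : ℝ) ^ (-k) * ∫ x in dyI k n.1 ×ˢ dyI k n.2.1 ×ˢ dyI k n.2.2,
    F₀ (x.1, x.2.1) * F₁ (x.2.1, x.2.2) * F₂ (x.2.2, x.1) *
      (haar k n.1 x.1 * haar k n.2.1 x.2.1 * haar k n.2.2 x.2.2)

/-- The dyadic triangular form `∑_(k ∈ S) ε_k ∑_(I ∈ A_k) L_I`. -/
noncomputable def formD (S : Finset ℤ) (ε : ℤ → ℝ) (F₀ F₁ F₂ : ℝ × ℝ → ℝ) : ℝ :=
  ∑ k ∈ S, ε k * ∑' n : XorTriple, formL F₀ F₁ F₂ k n.1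

/-- Lebesgue measure on the quadrant `[0,∞)²`. -/
noncomputable def quad : Measure (ℝ × ℝ) := volume.restrict (Set.Ici 0 ×ˢ Set.Ici 0)

end Vale.Agent.P075
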