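import Vale.Agent.P075.Local
import Mathlib.Data.Nat.Bitwise

/-! Telescoping of the one-step inequality along the dyadic tree. -/

namespace Vale.Agent.P075

open Matrix

/-- addresses of the descendants at depth j -/
def Tr : ℕ → Type
  | 0 => Unit
  | j + 1 => Bool × Tr j

instance instFintypeTr : (j : ℕ) → Fintype (Tr j)
  | 0 => inferInstanceAs (Fintype Unit)
  | j + 1 => letI := instFintypeTr j; inferInstanceAs (Fintype (Bool × Tr j))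

instance instDecEqTr : (j : ℕ) → DecidableEq (Tr j)
  | 0 => inferInstanceAs (DecidableEq Unit)
  | j + 1 => letI := instDecEqTr j; inferInstanceAs (DecidableEq (Bool × Tr j))

/-- index of a descendant -/
def pos : (j : ℕ) → ℕ → Tr j → ℕ
  | 0, n, _ => n
  | j + 1, n, x => pos j (Nat.bit x.1 n) x.2

/-- index of a descendant, product form -/
def pos' (j n : ℕ) (x : Bool × Tr j) : ℕ := pos j (Nat.bit x.1 n) x.2

/-- block of an array -/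
def mat (M : ℕ → ℕ → ℝ) (j n m : ℕ) : Matrix (Tr j) (Tr j) ℝ :=
  Matrix.of fun x y => M (pos j n x) (pos j m y)

/-- block of an array, product form -/
def mat' (M : ℕ → ℕ → ℝ) (j n m : ℕ) : Matrix (Bool × Tr j) (Bool × Tr j) ℝ :=
  Matrix.of fun x y => M (pos' j n x) (pos' j m y)

/-- signed triple sum -/
def tau (M₀ M₁ M₂ : ℕ → ℕ → ℝ) (j n m : ℕ) : ℝ :=
  ∑ x : Bool × Tr j, ∑ y : Bool × Tr j, ∑ z : Bool × Tr j, sgn x.1 * sgn y.1 * sgn z.1 *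
    (M₀ (pos' j n x) (pos' j m y) * M₁ (pos' j m y) (pos' j (n ^^^ m) z) *
      M₂ (pos' j (n ^^^ m) z) (pos' j n x))

/-- Bellman functional of a dyadic triple -/
noncomputable def PsiM (M₀ M₁ M₂ : ℕ → ℕ → ℝ) (j n m : ℕ) : ℝ :=
  Psi (mat M₀ j n m) (mat M₁ j m (n ^^^ m)) (mat M₂ j (n ^^^ m) n)

theorem step (M₀ M₁ M₂ : ℕ → ℕ → ℝ) (j n m : ℕ) :
    PsiM M₀ M₁ M₂ (j + 1) n m + 3 / 16 * |tau M₀ M₁ M₂ j n m| ≤
      2 * ∑ i, ∑ k, PsiM M₀ M₁ M₂ j (Nat.bit i n) (Nat.bit k m) := by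
  have h := local_step (mat' M₀ j n m) (mat' M₁ j m (n ^^^ m)) (mat' M₂ j (n ^^^ m) n)
  have e1 : trace (sg (Tr j) * mat' M₀ j n m * sg (Tr j) * mat' M₁ j m (n ^^^ m) * sg (Tr j) *
      mat' M₂ j (n ^^^ m) n) = tau M₀ M₁ M₂ j n m := by
    have : sg (Tr j) * mat' M₀ j n m * sg (Tr j) * mat' M₁ j m (n ^^^ m) * sg (Tr j) *
      mat' M₂ j (n ^^^ m) n = (sg (Tr j) * mat' M₀ j n m) * ((sg (Tr j) * mat' M₁ j m (n ^^^ m)) *
        (sg (Tr j) * mat' M₂ j (n ^^^ m) n)) := by simp only [Matrix.mul_assoc]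
    rw [this]
    simp only [trace, diag_apply, Matrix.mul_apply (M := sg (Tr j) * mat' M₀ j n m),
      Matrix.mul_apply (M := sg (Tr j) * mat' M₁ j m (n ^^^ m)), Finset.mul_sum, tau]
    simp only [sg, diagonal_mul, mat', of_apply]
    refine Finset.sum_congr rfl fun r _ => Finset.sum_congr rfl fun s _ =>
      Finset.sum_congr rfl fun t _ => ?_
    ring
  rw [e1] at h
  have e2 : ∀ i k, Psi (blk (mat' M₀ j n m) i k) (blk (mat' M₁ j m (n ^^^ m)) k (xor i k))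
      (blk (mat' M₂ j (n ^^^ m) n) (xor i k) i) = PsiM M₀ M₁ M₂ j (Nat.bit i n) (Nat.bit k m) := by
    intro i k
    unfold PsiM
    rw [Nat.xor_bit]
    rfl
  simp only [e2] at h
  exact h

theorem sum_range_bit (f : ℕ → ℝ) (N : ℕ) :
    ∑ n ∈ Finset.range (2 * N), f n = ∑ n ∈ Finset.range N, ∑ i, f (Nat.bit i n) := by
  induction N with
  | zero => simp
  | succ N ih =>
    rw [Nat.mul_succ, Finset.sum_range_succ, Finset.sum_range_succ, ih, Finset.sum_range_succ]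
    simp only [Fintype.sum_bool, Nat.bit_val, Bool.toNat_true, Bool.toNat_false, add_zero]
    ring

/-- total functional at depth j -/
noncomputable def Stot (M₀ M₁ M₂ : ℕ → ℕ → ℝ) (j N : ℕ) : ℝ :=
  (1 / 2) ^ j * ∑ n ∈ Finset.range N, ∑ m ∈ Finset.range N, PsiM M₀ M₁ M₂ j n m

theorem Stot_step (M₀ M₁ M₂ : ℕ → ℕ → ℝ) (j N : ℕ) :
    Stot M₀ M₁ M₂ (j + 1) N + 3 / 16 * ((1 / 2) ^ (j + 1) *
      ∑ n ∈ Finset.range N, ∑ m ∈ Finset.range N, |tau M₀ M₁ M₂ j n m|) ≤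
      Stot M₀ M₁ M₂ j (2 * N) := by
  unfold Stot
  simp only [sum_range_bit]
  have h : ∑ n ∈ Finset.range N, ∑ m ∈ Finset.range N,
      (PsiM M₀ M₁ M₂ (j + 1) n m + 3 / 16 * |tau M₀ M₁ M₂ j n m|) ≤
      ∑ n ∈ Finset.range N, ∑ m ∈ Finset.range N,
        2 * ∑ i, ∑ k, PsiM M₀ M₁ M₂ j (Nat.bit i n) (Nat.bit k m) :=
    Finset.sum_le_sum fun n _ => Finset.sum_le_sum fun m _ => step M₀ M₁ M₂ j n m
  have e : ∑ n ∈ Finset.range N, ∑ m ∈ Finset.range N,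
        2 * ∑ i, ∑ k, PsiM M₀ M₁ M₂ j (Nat.bit i n) (Nat.bit k m) =
      2 * ∑ n ∈ Finset.range N, ∑ i, ∑ m ∈ Finset.range N, ∑ k,
        PsiM M₀ M₁ M₂ j (Nat.bit i n) (Nat.bit k m) := by
    rw [Finset.mul_sum]
    refine Finset.sum_congr rfl fun n _ => ?_
    rw [← Finset.mul_sum, Finset.sum_comm]
  rw [e] at h
  simp only [Finset.sum_add_distrib, ← Finset.mul_sum] at h
  have hp : (0 : ℝ) < (1 / 2) ^ j := by positivity
  rw [pow_succ]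
  nlinarith

theorem telescope (M₀ M₁ M₂ : ℕ → ℕ → ℝ) (K N : ℕ) :
    Stot M₀ M₁ M₂ K N + 3 / 16 * ∑ j ∈ Finset.range K, (1 / 2) ^ (j + 1) *
      ∑ n ∈ Finset.range N, ∑ m ∈ Finset.range N, |tau M₀ M₁ M₂ j n m| ≤
      Stot M₀ M₁ M₂ 0 (2 ^ K * N) := by
  induction K generalizing N with
  | zero => simp
  | succ K ih =>
    have h1 := ih (2 * N)
    have h2 := Stot_step M₀ M₁ M₂ K N
    have h3 : ∑ j ∈ Finset.range K, (1 / 2 : ℝ) ^ (j + 1) *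
        ∑ n ∈ Finset.range N, ∑ m ∈ Finset.range N, |tau M₀ M₁ M₂ j n m| ≤
        ∑ j ∈ Finset.range K, (1 / 2) ^ (j + 1) *
        ∑ n ∈ Finset.range (2 * N), ∑ m ∈ Finset.range (2 * N), |tau M₀ M₁ M₂ j n m| := by
      have hs : Finset.range N ⊆ Finset.range (2 * N) := Finset.range_mono (by omega)
      refine Finset.sum_le_sum fun j _ => mul_le_mul_of_nonneg_left ?_ (by positivity)
      refine le_trans (Finset.sum_le_sum fun n _ =>
        Finset.sum_le_sum_of_subset_of_nonneg hs fun _ _ _ => abs_nonneg _) ?_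
      exact Finset.sum_le_sum_of_subset_of_nonneg hs fun _ _ _ =>
        Finset.sum_nonneg fun _ _ => abs_nonneg _
    rw [Finset.sum_range_succ, show 2 ^ (K + 1) * N = 2 ^ K * (2 * N) by ring]
    linarith

theorem phi2_unit (A C : Matrix Unit Unit ℝ) :
    phi2 A C ≤ 4 * (|A () ()| ^ 3 + |C () ()| ^ 3) := by
  set a := A () ()
  set c := C () ()
  have e : A * Aᵀ + Cᵀ * C =
      diagonal (fun _ => √(a ^ 2 + c ^ 2)) * diagonal (fun _ => √(a ^ 2 + c ^ 2)) := by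
    ext r s
    simp only [Matrix.add_apply, Matrix.mul_apply, transpose_apply, Finset.univ_unique,
      Finset.sum_singleton, diagonal_apply_eq]
    rw [Real.mul_self_sqrt (by positivity)]
    ring
  unfold phi2
  rw [e, Phi_sq (psd_diagonal fun _ => Real.sqrt_nonneg _)]
  simp only [diagonal_mul_diagonal, trace_diagonal, Finset.univ_unique, Finset.sum_singleton]
  have h1 : √(a ^ 2 + c ^ 2) ≤ |a| + |c| := by
    rw [Real.sqrt_le_left (by positivity), add_sq, sq_abs, sq_abs]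
    have := mul_nonneg (abs_nonneg a) (abs_nonneg c)
    linarith
  have h2 : √(a ^ 2 + c ^ 2) * √(a ^ 2 + c ^ 2) * √(a ^ 2 + c ^ 2) ≤ (|a| + |c|) ^ 3 := by
    rw [← pow_three']
    exact pow_le_pow_left₀ (Real.sqrt_nonneg _) h1 3
  have h3 : (|a| + |c|) ^ 3 ≤ 4 * (|a| ^ 3 + |c| ^ 3) := by
    have := mul_nonneg (add_nonneg (abs_nonneg a) (abs_nonneg c)) (sq_nonneg (|a| - |c|))
    nlinarith
  linarith

theorem PsiM_zero (M₀ M₁ M₂ : ℕ → ℕ → ℝ) (n m : ℕ) :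
    PsiM M₀ M₁ M₂ 0 n m ≤ 8 * (|M₀ n m| ^ 3 + |M₁ m (n ^^^ m)| ^ 3 + |M₂ (n ^^^ m) n| ^ 3) := by
  have h0 := phi2_unit (mat M₀ 0 n m) (mat M₂ 0 (n ^^^ m) n)
  have h1 := phi2_unit (mat M₁ 0 m (n ^^^ m)) (mat M₀ 0 n m)
  have h2 := phi2_unit (mat M₂ 0 (n ^^^ m) n) (mat M₁ 0 m (n ^^^ m))
  have e0 : mat M₀ 0 n m () () = M₀ n m := rfl
  have e1 : mat M₁ 0 m (n ^^^ m) () () = M₁ m (n ^^^ m) := rfl
  have e2 : mat M₂ 0 (n ^^^ m) n () () = M₂ (n ^^^ m) n := rfl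
  rw [e0, e2] at h0
  rw [e0, e1] at h1
  rw [e1, e2] at h2
  have : PsiM M₀ M₁ M₂ 0 n m = phi2 (I := Unit) (mat M₀ 0 n m) (mat M₂ 0 (n ^^^ m) n) +
    phi2 (I := Unit) (mat M₁ 0 m (n ^^^ m)) (mat M₀ 0 n m) +
    phi2 (I := Unit) (mat M₂ 0 (n ^^^ m) n) (mat M₁ 0 m (n ^^^ m)) := rfl
  linarith

/-- the discrete estimate -/
theorem discrete (M₀ M₁ M₂ : ℕ → ℕ → ℝ) (K N : ℕ) :
    ∑ j ∈ Finset.range K, (1 / 2) ^ (j + 1) *
      ∑ n ∈ Finset.range N, ∑ m ∈ Finset.range N, |tau M₀ M₁ M₂ j n m| ≤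
      43 * ∑ n ∈ Finset.range (2 ^ K * N), ∑ m ∈ Finset.range (2 ^ K * N),
        (|M₀ n m| ^ 3 + |M₁ m (n ^^^ m)| ^ 3 + |M₂ (n ^^^ m) n| ^ 3) := by
  have h := telescope M₀ M₁ M₂ K N
  have h1 : 0 ≤ Stot M₀ M₁ M₂ K N := mul_nonneg (by positivity)
    (Finset.sum_nonneg fun _ _ => Finset.sum_nonneg fun _ _ => Psi_nonneg _ _ _)
  have h2 : Stot M₀ M₁ M₂ 0 (2 ^ K * N) ≤
      8 * ∑ n ∈ Finset.range (2 ^ K * N), ∑ m ∈ Finset.range (2 ^ K * N),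
        (|M₀ n m| ^ 3 + |M₁ m (n ^^^ m)| ^ 3 + |M₂ (n ^^^ m) n| ^ 3) := by
    unfold Stot
    simp only [pow_zero, one_mul, Finset.mul_sum]
    exact Finset.sum_le_sum fun n _ => Finset.sum_le_sum fun m _ => PsiM_zero M₀ M₁ M₂ n m
  have h3 : 0 ≤ ∑ n ∈ Finset.range (2 ^ K * N), ∑ m ∈ Finset.range (2 ^ K * N),
        (|M₀ n m| ^ 3 + |M₁ m (n ^^^ m)| ^ 3 + |M₂ (n ^^^ m) n| ^ 3) :=
    Finset.sum_nonneg fun _ _ => Finset.sum_nonneg fun _ _ => by positivity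
  linarith

end Vale.Agent.P075
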