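import Vale.Agent.P075.Mat

/-! Quantitative convexity of the trace functional and the vertex inequality. -/

namespace Vale.Agent.P075

open Matrix

section gain

variable {m n : Type} [Fintype m] [Fintype n] [DecidableEq m] [DecidableEq n]

theorem PSD.entry_eq_zero {M : Matrix n n ℝ} (h : PSD M) {a : n} (ha : M a a ≤ 0) (b : n) :
    M b a = 0 := by
  have h1 : M *ᵥ Pi.single a 1 = 0 := h.mulVec_eq_zero (by simpa using ha)
  simpa using congrFun h1 b

/-- solving the Lyapunov equation for a diagonal matrix -/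
theorem solve_diag {y : n → ℝ} (hy : ∀ i, 0 ≤ y i) {P₀ P₁ : Matrix n n ℝ} (h₀ : PSD P₀)
    (h₁ : PSD P₁) (hs : P₀ + P₁ = diagonal y * diagonal y) :
    ∃ Z : Matrix n n ℝ, Zᵀ = Z ∧ diagonal y * Z + Z * diagonal y = P₀ - P₁ ∧
      PSD (diagonal y + Z) ∧ PSD (diagonal y - Z) := by
  have hsym : ∀ a b, (P₀ - P₁) a b = (P₀ - P₁) b a := by
    intro a b
    have e0 := congrFun (congrFun h₀.1 a) b
    have e1 := congrFun (congrFun h₁.1 a) b
    simp only [transpose_apply] at e0 e1
    simp [e0, e1]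
  have hzero : ∀ a b, y a + y b = 0 → (P₀ - P₁) a b = 0 := by
    intro a b hab
    have hb : y b = 0 := by linarith [hy a, hy b]
    have hd := congrFun (congrFun hs b) b
    simp only [Matrix.add_apply, diagonal_mul_diagonal, diagonal_apply_eq, hb, mul_zero] at hd
    have e0 := h₀.entry_eq_zero (a := b) (by linarith [h₁.diag_nonneg b]) a
    have e1 := h₁.entry_eq_zero (a := b) (by linarith [h₀.diag_nonneg b]) a
    simp [e0, e1]
  set Z : Matrix n n ℝ := Matrix.of fun a b => (P₀ - P₁) a b / (y a + y b) with hZ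
  have hZs : Zᵀ = Z := by
    ext a b
    simp only [hZ, transpose_apply, of_apply]
    rw [hsym b a, add_comm]
  have hL : diagonal y * Z + Z * diagonal y = P₀ - P₁ := by
    ext a b
    simp only [hZ, Matrix.add_apply, diagonal_mul, mul_diagonal, of_apply]
    by_cases hab : y a + y b = 0
    · rw [hzero a b hab]; simp
    · field_simp
  have hker : ∀ x : n → ℝ, diagonal y *ᵥ x = 0 → x ⬝ᵥ (Z *ᵥ x) = 0 := by
    intro x hx
    simp only [dotProduct, mulVec, Finset.mul_sum]
    refine Finset.sum_eq_zero fun a _ => Finset.sum_eq_zero fun b _ => ?_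
    have ha := congrFun hx a
    have hb := congrFun hx b
    rw [mulVec_diagonal] at ha hb
    simp only [Pi.zero_apply, mul_eq_zero] at ha hb
    rcases ha with ha | ha
    · rcases hb with hb | hb
      · simp [hZ, ha, hb]
      · simp [hb]
    · simp [ha]
  have hY := psd_diagonal hy
  refine ⟨Z, hZs, hL, ?_, ?_⟩
  · refine lyap (Y := diagonal y) (by simp [hZs]) hY ?_ ?_
    · have : diagonal y * (diagonal y + Z) + (diagonal y + Z) * diagonal y
          = (P₀ + P₀ + P₀) + P₁ := by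
        rw [Matrix.mul_add, Matrix.add_mul, ← hs]
        have := hL
        rw [eq_sub_iff_add_eq] at this
        rw [← this]
        abel
      rw [this]
      exact ((h₀.add h₀).add h₀).add h₁
    · intro x hx
      rw [add_mulVec, dotProduct_add, hx, hker x hx]
      simp
  · refine lyap (Y := diagonal y) (by simp [hZs]) hY ?_ ?_
    · have : diagonal y * (diagonal y - Z) + (diagonal y - Z) * diagonal y
          = (P₁ + P₁ + P₁) + P₀ := by
        rw [Matrix.mul_sub, Matrix.sub_mul, ← hs]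
        have := hL
        rw [eq_sub_iff_add_eq] at this
        rw [← this]
        abel
      rw [this]
      exact ((h₁.add h₁).add h₁).add h₀
    · intro x hx
      rw [sub_mulVec, dotProduct_sub, hx, hker x hx]
      simp

theorem solve {Y P₀ P₁ : Matrix n n ℝ} (hY : PSD Y) (h₀ : PSD P₀) (h₁ : PSD P₁)
    (hs : P₀ + P₁ = Y * Y) :
    ∃ Z : Matrix n n ℝ, Zᵀ = Z ∧ Y * Z + Z * Y = P₀ - P₁ ∧ PSD (Y + Z) ∧ PSD (Y - Z) := by
  obtain ⟨U, y, hy, h1, h2, h3⟩ := spec_psd hY
  have hs' : Uᵀ * P₀ * Uᵀᵀ + Uᵀ * P₁ * Uᵀᵀ = diagonal y * diagonal y := by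
    rw [← Matrix.add_mul, ← Matrix.mul_add, hs, h3, transpose_transpose]
    calc Uᵀ * (U * diagonal y * Uᵀ * (U * diagonal y * Uᵀ)) * U
        = (Uᵀ * U) * diagonal y * (Uᵀ * U) * diagonal y * (Uᵀ * U) := by
          simp only [Matrix.mul_assoc]
      _ = _ := by rw [h1]; simp
  obtain ⟨Z, z1, z2, z3, z4⟩ := solve_diag hy (h₀.conj Uᵀ) (h₁.conj Uᵀ) hs'
  refine ⟨U * Z * Uᵀ, by simp [Matrix.transpose_mul, z1, Matrix.mul_assoc], ?_, ?_, ?_⟩
  · calc Y * (U * Z * Uᵀ) + U * Z * Uᵀ * Y
        = U * (diagonal y * (Uᵀ * U) * Z + Z * (Uᵀ * U) * diagonal y) * Uᵀ := by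
          rw [h3]; simp only [Matrix.mul_add, Matrix.add_mul, Matrix.mul_assoc]
      _ = (U * Uᵀ) * (P₀ - P₁) * (U * Uᵀ) := by
          rw [h1, Matrix.mul_one, Matrix.mul_one, z2, transpose_transpose]
          simp only [Matrix.mul_sub, Matrix.sub_mul, Matrix.mul_assoc]
      _ = _ := by rw [h2]; simp
  · have := z3.conj U
    rwa [Matrix.mul_add, Matrix.add_mul, ← h3] at this
  · have := z4.conj U
    rwa [Matrix.mul_sub, Matrix.sub_mul, ← h3] at this

/-- quantitative convexity -/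
theorem strong_convex {P₀ P₁ : Matrix n n ℝ} (h₀ : PSD P₀) (h₁ : PSD P₁) {δ : n → ℝ}
    (hδ : ∀ i, 0 < δ i) (hle : PSD (diagonal δ * diagonal δ - (P₀ + P₁))) :
    2 * Phi (P₀ + P₁) + 3 / 2 * ∑ a, ∑ b, ((P₀ - P₁) a b) ^ 2 / (δ a + δ b) ≤
      Phi ((2 : ℝ) • P₀) + Phi ((2 : ℝ) • P₁) := by
  obtain ⟨hY, hYY⟩ := rt_spec (h₀.add h₁)
  have hPhi : Phi (P₀ + P₁) = trace (rt (P₀ + P₁) * rt (P₀ + P₁) * rt (P₀ + P₁)) := rfl
  set Y := rt (P₀ + P₁) with hYdef
  obtain ⟨Z, z1, z2, z3, z4⟩ := solve hY h₀ h₁ hYY.symm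
  have a0 := le_Phi (h₀.smul (c := 2) (by norm_num)) z3
  have a1 := le_Phi (h₁.smul (c := 2) (by norm_num)) z4
  have hD := psd_diagonal fun i => (hδ i).le
  -- monotonicity of the square root
  have hmono : PSD (diagonal δ - Y) := by
    refine lyap (Y := diagonal δ + Y) (by simp [hY.1]) (hD.add hY) ?_ ?_
    · have : (diagonal δ + Y) * (diagonal δ - Y) + (diagonal δ - Y) * (diagonal δ + Y)
          = (diagonal δ * diagonal δ - Y * Y) + (diagonal δ * diagonal δ - Y * Y) := by
        noncomm_ring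
      rw [this, hYY]
      exact hle.add hle
    · intro x hx
      have h5 : x ⬝ᵥ ((diagonal δ + Y) *ᵥ x) = 0 := by rw [hx]; simp
      rw [add_mulVec, dotProduct_add] at h5
      have h6 : diagonal δ *ᵥ x = 0 := hD.mulVec_eq_zero (by linarith [hY.2 x])
      have h7 : x = 0 := by
        ext i
        have := congrFun h6 i
        rw [mulVec_diagonal] at this
        simpa [(hδ i).ne'] using this
      simp [h7]
  have hsym : ∀ a b, (P₀ - P₁) a b = (P₀ - P₁) b a := by
    intro a b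
    have e0 := congrFun (congrFun h₀.1 a) b
    have e1 := congrFun (congrFun h₁.1 a) b
    simp only [transpose_apply] at e0 e1
    simp [e0, e1]
  set T : Matrix n n ℝ := Matrix.of fun a b => (P₀ - P₁) a b / (δ a + δ b) with hT
  have hTs : Tᵀ = T := by
    ext a b
    simp only [hT, transpose_apply, of_apply]
    rw [hsym b a, add_comm]
  have hL : diagonal δ * T + T * diagonal δ = P₀ - P₁ := by
    ext a b
    simp only [hT, Matrix.add_apply, diagonal_mul, mul_diagonal, of_apply]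
    have : δ a + δ b ≠ 0 := (add_pos (hδ a) (hδ b)).ne'
    field_simp
  have hE : ∑ a, ∑ b, ((P₀ - P₁) a b) ^ 2 / (δ a + δ b) = trace ((P₀ - P₁) * T) := by
    simp only [trace, diag_apply, Matrix.mul_apply, hT, of_apply]
    refine Finset.sum_congr rfl fun a _ => Finset.sum_congr rfl fun b _ => ?_
    rw [hsym b a, add_comm (δ b)]
    ring
  rw [hE]
  have b1 := (hmono.conj T).trace_nonneg
  have b2 := (hY.conj (Z - T)).trace_nonneg
  rw [transpose_sub, z1, hTs] at b2
  rw [hTs] at b1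
  have c1 : trace ((P₀ - P₁) * T) = 2 * trace (T * diagonal δ * T) := by
    rw [← hL, Matrix.add_mul, trace_add, trace_mul_cycle (diagonal δ) T T,
      trace_mul_cycle T (diagonal δ) T, trace_mul_cycle T T (diagonal δ),
      trace_mul_cycle (diagonal δ) T T]
    ring
  have c2 : trace ((P₀ - P₁) * T) = trace (Z * Y * T) + trace (T * Y * Z) := by
    rw [← z2, Matrix.add_mul, trace_add, trace_mul_cycle Y Z T]
    ring
  have c3 : trace ((P₀ - P₁) * Z) = 2 * trace (Z * Y * Z) := by
    rw [← z2, Matrix.add_mul, trace_add, trace_mul_cycle Y Z Z]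
    ring
  have c4 : trace (P₀ * Y) + trace (P₁ * Y) = trace (Y * Y * Y) := by
    rw [← trace_add, ← Matrix.add_mul, hYY]
  have c5 : trace ((P₀ - P₁) * Z) = trace (P₀ * Z) - trace (P₁ * Z) := by
    rw [Matrix.sub_mul, trace_sub]
  have c6 : trace ((Y + Z) * (Y + Z) * (Y + Z)) + trace ((Y - Z) * (Y - Z) * (Y - Z))
      = 2 * trace (Y * Y * Y) + 6 * trace (Z * Y * Z) := by
    have : (Y + Z) * (Y + Z) * (Y + Z) + (Y - Z) * (Y - Z) * (Y - Z)
        = (Y * Y * Y + Y * Y * Y) + (Y * Z * Z + Y * Z * Z) + (Z * Y * Z + Z * Y * Z)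
          + (Z * Z * Y + Z * Z * Y) := by noncomm_ring
    rw [← trace_add, this]
    simp only [trace_add]
    rw [trace_mul_cycle Y Z Z, ← trace_mul_cycle Z Y Z]
    ring
  simp only [Matrix.smul_mul, Matrix.mul_add, Matrix.mul_sub, Matrix.sub_mul, trace_smul,
    trace_add, trace_sub, smul_eq_mul] at a0 a1 b1 b2
  simp only [Matrix.mul_add, Matrix.mul_sub, Matrix.sub_mul, trace_add, trace_sub] at c6
  linarith

end gain

end Vale.Agent.P075
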