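import Vale.Agent.P075.Gain

/-! The one-step inequality for the trace functional on a triple of block matrices. -/

namespace Vale.Agent.P075

open Matrix

section loc

variable {J a b c : Type} [Fintype J] [Fintype a] [Fintype b] [Fintype c]
  [DecidableEq J] [DecidableEq a] [DecidableEq b] [DecidableEq c]

/-- sign of a half -/
def sgn (i : Bool) : ℝ := if i then -1 else 1

/-- the diagonal sign matrix -/
def sg (J : Type) [DecidableEq J] : Matrix (Bool × J) (Bool × J) ℝ := diagonal fun x => sgn x.1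

/-- a block -/
def blk (A : Matrix (Bool × J) (Bool × J) ℝ) (i j : Bool) : Matrix J J ℝ :=
  A.submatrix (Prod.mk i) (Prod.mk j)

/-- energy -/
noncomputable def En (γ : c → ℝ) (α : a → ℝ) (X : Matrix c a ℝ) : ℝ :=
  ∑ r, ∑ s, (γ r * X r s * α s) ^ 2 / (γ r + α s)

/-- vertex functional -/
noncomputable def phi2 {I : Type} [Fintype I] (A C : Matrix I I ℝ) : ℝ := Phi (A * Aᵀ + Cᵀ * C)

theorem vertex_abs (L : Matrix (Bool × J) a ℝ) (K : Matrix (Bool × J) c ℝ) {α : a → ℝ}
    {γ : c → ℝ} (hα : ∀ i, 0 < α i) (hγ : ∀ i, 0 < γ i)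
    (hL : Lᵀ * L = diagonal α * diagonal α) (hK : Kᵀ * K = diagonal γ * diagonal γ) :
    2 * Phi (L * Lᵀ + K * Kᵀ) + 3 / 4 * ∑ r, ∑ s, ((Kᵀ * sg J * L) r s) ^ 2 / (γ r + α s) ≤
      Phi ((2 : ℝ) • (L * Lᵀ + K * Kᵀ).submatrix (Prod.mk false) (Prod.mk false)) +
      Phi ((2 : ℝ) • (L * Lᵀ + K * Kᵀ).submatrix (Prod.mk true) (Prod.mk true)) := by
  set W : Matrix (a ⊕ c) (Bool × J) ℝ := fromRows Lᵀ Kᵀ with hW
  have hWW : Wᵀ * W = L * Lᵀ + K * Kᵀ := by
    rw [hW, transpose_fromRows, fromCols_mul_fromRows]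
    simp
  let Wi : Bool → Matrix (a ⊕ c) J ℝ := fun i => W.submatrix id (Prod.mk i)
  have hsum : Wi false * (Wi false)ᵀ + Wi true * (Wi true)ᵀ = W * Wᵀ := by
    ext r s
    simp [Wi, Matrix.mul_apply, Fintype.sum_prod_type, add_comm]
  have hdiff : Wi false * (Wi false)ᵀ - Wi true * (Wi true)ᵀ = W * sg J * Wᵀ := by
    ext r s
    simp only [Wi, sg, Matrix.mul_apply (N := Wᵀ), mul_diagonal, Matrix.sub_apply]
    simp [Matrix.mul_apply, Fintype.sum_prod_type, sgn]
    ring
  have hsub : ∀ i, (Wi i)ᵀ * Wi i = (L * Lᵀ + K * Kᵀ).submatrix (Prod.mk i) (Prod.mk i) := by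
    intro i
    rw [← hWW]
    ext r s
    simp [Wi, Matrix.mul_apply]
  let δ : a ⊕ c → ℝ := Sum.elim (fun i => 2 * α i) (fun i => 2 * γ i)
  have hδ : ∀ i, 0 < δ i := by
    rintro (i | i)
    · simpa [δ] using hα i
    · simpa [δ] using hγ i
  have hle : PSD (diagonal δ * diagonal δ - (Wi false * (Wi false)ᵀ + Wi true * (Wi true)ᵀ)) := by
    rw [hsum]
    have e : diagonal δ * diagonal δ - W * Wᵀ = fromRows Lᵀ (-Kᵀ) * (fromRows Lᵀ (-Kᵀ))ᵀ +
        diagonal (Sum.elim (fun i => 2 * α i ^ 2) (fun i => 2 * γ i ^ 2)) := by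
      rw [hW, transpose_fromRows, transpose_fromRows, fromRows_mul_fromCols,
        fromRows_mul_fromCols]
      simp only [transpose_transpose, transpose_neg, Matrix.neg_mul, Matrix.mul_neg, neg_neg, hL,
        hK, diagonal_mul_diagonal]
      ext r s
      rcases r with r | r <;> rcases s with s | s
      · by_cases h : r = s
        · subst h; simp [δ]; ring
        · simp [δ, h]
      · simp
      · simp
      · by_cases h : r = s
        · subst h; simp [δ]; ring
        · simp [δ, h]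
    rw [e]
    refine (psd_gram _).add (psd_diagonal ?_)
    rintro (i | i) <;> simp <;> positivity
  have key := strong_convex (psd_gram (Wi false)) (psd_gram (Wi true)) hδ hle
  rw [hsum, hdiff, Phi_comm, hWW, Phi_comm_two, Phi_comm_two, hsub, hsub] at key
  have hlow : (1 / 2) * ∑ r, ∑ s, ((Kᵀ * sg J * L) r s) ^ 2 / (γ r + α s) ≤
      ∑ r, ∑ s, ((W * sg J * Wᵀ) r s) ^ 2 / (δ r + δ s) := by
    have hnn : ∀ r s, 0 ≤ ((W * sg J * Wᵀ) r s) ^ 2 / (δ r + δ s) := fun r s =>
      div_nonneg (sq_nonneg _) (add_pos (hδ r) (hδ s)).le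
    rw [Fintype.sum_sum_type]
    refine le_add_of_nonneg_of_le
      (Finset.sum_nonneg fun r _ => Finset.sum_nonneg fun s _ => hnn _ _) ?_
    rw [Finset.mul_sum]
    refine Finset.sum_le_sum fun r _ => ?_
    rw [Fintype.sum_sum_type, Finset.mul_sum]
    refine le_add_of_le_of_nonneg (le_of_eq ?_) (Finset.sum_nonneg fun s _ => hnn _ _)
    refine Finset.sum_congr rfl fun s _ => ?_
    have : (W * sg J * Wᵀ) (Sum.inr r) (Sum.inl s) = (Kᵀ * sg J * L) r s := by
      rw [hW, transpose_fromRows, fromRows_mul, fromRows_mul_fromCols]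
      simp
    rw [this]
    simp only [δ, Sum.elim_inl, Sum.elim_inr]
    have := (add_pos (hγ r) (hα s)).ne'
    field_simp
  linarith

theorem gram_blk (A C : Matrix (Bool × J) (Bool × J) ℝ) (i : Bool) :
    (A * Aᵀ + Cᵀ * C).submatrix (Prod.mk i) (Prod.mk i) =
      (blk A i false * (blk A i false)ᵀ + (blk C (xor i false) i)ᵀ * blk C (xor i false) i) +
      (blk A i true * (blk A i true)ᵀ + (blk C (xor i true) i)ᵀ * blk C (xor i true) i) := by
  ext r s
  cases i <;> simp [blk, Matrix.mul_apply, Fintype.sum_prod_type] <;> ring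

theorem vertex {A C : Matrix (Bool × J) (Bool × J) ℝ} {UA VA : Matrix (Bool × J) a ℝ}
    {UC VC : Matrix (Bool × J) c ℝ} {α : a → ℝ} {γ : c → ℝ}
    (hα : ∀ i, 0 < α i) (hUA : UAᵀ * UA = 1) (hVA : VAᵀ * VA = 1)
    (hA : A = UA * diagonal α * VAᵀ)
    (hγ : ∀ i, 0 < γ i) (hUC : UCᵀ * UC = 1) (hVC : VCᵀ * VC = 1)
    (hC : C = UC * diagonal γ * VCᵀ) :
    2 * phi2 A C + 3 / 4 * En γ α (VCᵀ * sg J * UA) ≤
      4 * ∑ i, ∑ j, phi2 (blk A i j) (blk C (xor i j) i) := by
  have hL : (UA * diagonal α)ᵀ * (UA * diagonal α) = diagonal α * diagonal α := by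
    calc (UA * diagonal α)ᵀ * (UA * diagonal α) = diagonal α * (UAᵀ * UA) * diagonal α := by
          simp only [Matrix.transpose_mul, diagonal_transpose, Matrix.mul_assoc]
      _ = _ := by rw [hUA, Matrix.mul_one]
  have hK : (VC * diagonal γ)ᵀ * (VC * diagonal γ) = diagonal γ * diagonal γ := by
    calc (VC * diagonal γ)ᵀ * (VC * diagonal γ) = diagonal γ * (VCᵀ * VC) * diagonal γ := by
          simp only [Matrix.transpose_mul, diagonal_transpose, Matrix.mul_assoc]
      _ = _ := by rw [hVC, Matrix.mul_one]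
  have e1 : (UA * diagonal α) * (UA * diagonal α)ᵀ = A * Aᵀ := by
    calc (UA * diagonal α) * (UA * diagonal α)ᵀ
        = UA * diagonal α * (VAᵀ * VA) * diagonal α * UAᵀ := by
          rw [hVA]
          simp only [Matrix.transpose_mul, diagonal_transpose, Matrix.mul_assoc, Matrix.one_mul]
      _ = _ := by
          rw [hA]
          simp only [Matrix.transpose_mul, transpose_transpose, diagonal_transpose,
            Matrix.mul_assoc]
  have e2 : (VC * diagonal γ) * (VC * diagonal γ)ᵀ = Cᵀ * C := by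
    calc (VC * diagonal γ) * (VC * diagonal γ)ᵀ
        = VC * diagonal γ * (UCᵀ * UC) * diagonal γ * VCᵀ := by
          rw [hUC]
          simp only [Matrix.transpose_mul, diagonal_transpose, Matrix.mul_assoc, Matrix.one_mul]
      _ = _ := by
          rw [hC]
          simp only [Matrix.transpose_mul, transpose_transpose, diagonal_transpose,
            Matrix.mul_assoc]
  have key := vertex_abs (UA * diagonal α) (VC * diagonal γ) hα hγ hL hK
  rw [e1, e2, gram_blk, gram_blk] at key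
  have e3 : ∑ r, ∑ s, (((VC * diagonal γ)ᵀ * sg J * (UA * diagonal α)) r s) ^ 2 / (γ r + α s)
      = En γ α (VCᵀ * sg J * UA) := by
    have : (VC * diagonal γ)ᵀ * sg J * (UA * diagonal α)
        = diagonal γ * (VCᵀ * sg J * UA) * diagonal α := by
      simp only [Matrix.transpose_mul, diagonal_transpose, Matrix.mul_assoc]
    rw [this]
    simp only [En, mul_diagonal, diagonal_mul]
  rw [e3] at key
  have j0 := Phi_jensen
    ((psd_gram (blk A false false)).add (psd_gram' (blk C (xor false false) false)))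
    ((psd_gram (blk A false true)).add (psd_gram' (blk C (xor false true) false)))
  have j1 := Phi_jensen
    ((psd_gram (blk A true false)).add (psd_gram' (blk C (xor true false) true)))
    ((psd_gram (blk A true true)).add (psd_gram' (blk C (xor true true) true)))
  simp only [Fintype.sum_bool, phi2]
  linarith

/-- contraction property -/
def Contr (Z : Matrix b c ℝ) : Prop :=
  ∀ (y : b → ℝ) (x : c → ℝ), 2 * |y ⬝ᵥ (Z *ᵥ x)| ≤ y ⬝ᵥ y + x ⬝ᵥ x

theorem iso_dot {I : Type} [Fintype I] {U : Matrix I c ℝ} (hU : Uᵀ * U = 1) (x : c → ℝ) :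
    (U *ᵥ x) ⬝ᵥ (U *ᵥ x) = x ⬝ᵥ x := by
  rw [dotProduct_mulVec, ← mulVec_transpose, mulVec_mulVec, hU, one_mulVec]

theorem contr_iso {V : Matrix (Bool × J) b ℝ} {U : Matrix (Bool × J) c ℝ} (hV : Vᵀ * V = 1)
    (hU : Uᵀ * U = 1) : Contr (Vᵀ * sg J * U) := by
  intro y x
  rw [← iso_dot hV y, ← iso_dot hU x, ← mulVec_mulVec, ← mulVec_mulVec, dotProduct_mulVec,
    vecMul_transpose]
  generalize V *ᵥ y = v
  generalize U *ᵥ x = u
  simp only [dotProduct, sg, mulVec_diagonal]
  rw [← Finset.sum_add_distrib]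
  refine le_trans (mul_le_mul_of_nonneg_left (Finset.abs_sum_le_sum_abs _ _) (by norm_num)) ?_
  rw [Finset.mul_sum]
  refine Finset.sum_le_sum fun i _ => ?_
  have h : |v i * (sgn i.1 * u i)| = |v i| * |u i| := by
    rw [abs_mul, abs_mul]
    unfold sgn
    split_ifs <;> simp
  rw [h, ← abs_mul_abs_self (v i), ← abs_mul_abs_self (u i)]
  nlinarith [sq_nonneg (|v i| - |u i|)]

omit [DecidableEq a] [DecidableEq b] [DecidableEq c] in
theorem part {α : a → ℝ} {β : b → ℝ} {γ : c → ℝ} (hα : ∀ i, 0 < α i) (hβ : ∀ i, 0 < β i)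
    (hγ : ∀ i, 0 < γ i) (X : Matrix c a ℝ) (Y : Matrix a b ℝ) {Z : Matrix b c ℝ} (hZ : Contr Z)
    (p : a → b → Prop) (q : a → c → Prop) [∀ r s, Decidable (p r s)] [∀ r s, Decidable (q r s)]
    (hp : ∀ r s, p r s → β s ≤ α r) (hq : ∀ r t, q r t → γ t ≤ α r) :
    |∑ r, ∑ s, ∑ t, if p r s ∧ q r t then α r * β s * γ t * (X t r * Y r s * Z s t) else 0| ≤
      En γ α X + En α β Y := by
  refine le_trans (Finset.abs_sum_le_sum_abs _ _) ?_
  unfold En
  rw [Finset.sum_comm (s := (Finset.univ : Finset c)), ← Finset.sum_add_distrib]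
  refine Finset.sum_le_sum fun r _ => ?_
  set y : b → ℝ := fun s => if p r s then β s * Y r s else 0 with hy
  set x : c → ℝ := fun t => if q r t then γ t * X t r else 0 with hx
  have e : (∑ s, ∑ t, if p r s ∧ q r t then α r * β s * γ t * (X t r * Y r s * Z s t) else 0)
      = α r * (y ⬝ᵥ (Z *ᵥ x)) := by
    simp only [dotProduct, mulVec, Finset.mul_sum]
    refine Finset.sum_congr rfl fun s _ => Finset.sum_congr rfl fun t _ => ?_
    by_cases h1 : p r s <;> by_cases h2 : q r t <;> simp [hy, hx, h1, h2]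
    ring
  rw [e, abs_mul, abs_of_pos (hα r)]
  have h1 : α r * (y ⬝ᵥ y) ≤ 2 * ∑ s, (α r * Y r s * β s) ^ 2 / (α r + β s) := by
    simp only [dotProduct, Finset.mul_sum]
    refine Finset.sum_le_sum fun s _ => ?_
    have hpos := add_pos (hα r) (hβ s)
    by_cases h1 : p r s
    · simp only [hy, h1, if_true]
      rw [← mul_div_assoc, le_div_iff₀ hpos]
      have := hp r s h1
      have h3 : 0 ≤ α r * (β s * Y r s) ^ 2 := mul_nonneg (hα r).le (sq_nonneg _)
      nlinarith
    · simp only [hy, h1, if_false]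
      have : 0 ≤ (α r * Y r s * β s) ^ 2 / (α r + β s) := div_nonneg (sq_nonneg _) hpos.le
      linarith
  have h2 : α r * (x ⬝ᵥ x) ≤ 2 * ∑ t, (γ t * X t r * α r) ^ 2 / (γ t + α r) := by
    simp only [dotProduct, Finset.mul_sum]
    refine Finset.sum_le_sum fun t _ => ?_
    have hpos := add_pos (hγ t) (hα r)
    by_cases h1 : q r t
    · simp only [hx, h1, if_true]
      rw [← mul_div_assoc, le_div_iff₀ hpos]
      have := hq r t h1
      have h3 : 0 ≤ α r * (γ t * X t r) ^ 2 := mul_nonneg (hα r).le (sq_nonneg _)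
      nlinarith
    · simp only [hx, h1, if_false]
      have : 0 ≤ (γ t * X t r * α r) ^ 2 / (γ t + α r) := div_nonneg (sq_nonneg _) hpos.le
      linarith
  have h3 := mul_le_mul_of_nonneg_left (hZ y x) (hα r).le
  nlinarith

omit [DecidableEq a] [DecidableEq b] [DecidableEq c] in
theorem trilinear {α : a → ℝ} {β : b → ℝ} {γ : c → ℝ} (hα : ∀ i, 0 < α i) (hβ : ∀ i, 0 < β i)
    (hγ : ∀ i, 0 < γ i) {X : Matrix c a ℝ} {Y : Matrix a b ℝ} {Z : Matrix b c ℝ}
    (hX : Contr X) (hY : Contr Y) (hZ : Contr Z) :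
    |∑ r, ∑ s, ∑ t, α r * β s * γ t * (X t r * Y r s * Z s t)| ≤
      2 * (En γ α X + En α β Y + En β γ Z) := by
  have h1 := part hα hβ hγ X Y hZ (fun r s => β s ≤ α r) (fun r t => γ t ≤ α r)
    (fun _ _ h => h) (fun _ _ h => h)
  have h2 := part hβ hγ hα Y Z hX (fun s t => γ t ≤ β s) (fun s r => α r < β s)
    (fun _ _ h => h) (fun _ _ h => h.le)
  have h3 := part hγ hα hβ Z X hY (fun t r => α r < γ t) (fun t s => β s < γ t)
    (fun _ _ h => h.le) (fun _ _ h => h.le)
  have r2 : ∀ f : a → b → c → ℝ, ∑ s, ∑ t, ∑ r, f r s t = ∑ r, ∑ s, ∑ t, f r s t := by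
    intro f
    rw [Finset.sum_comm (s := (Finset.univ : Finset a))]
    exact Finset.sum_congr rfl fun s _ => Finset.sum_comm
  have r3 : ∀ f : a → b → c → ℝ, ∑ t, ∑ r, ∑ s, f r s t = ∑ r, ∑ s, ∑ t, f r s t := by
    intro f
    rw [Finset.sum_comm]
    exact Finset.sum_congr rfl fun s _ => Finset.sum_comm
  rw [r2 (fun r s t => if γ t ≤ β s ∧ α r < β s then β s * γ t * α r * (Y r s * Z s t * X t r)
    else 0)] at h2
  rw [r3 (fun r s t => if α r < γ t ∧ β s < γ t then γ t * α r * β s * (Z s t * X t r * Y r s)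
    else 0)] at h3
  have e : ∑ r, ∑ s, ∑ t, α r * β s * γ t * (X t r * Y r s * Z s t) =
      (∑ r, ∑ s, ∑ t, if β s ≤ α r ∧ γ t ≤ α r then α r * β s * γ t * (X t r * Y r s * Z s t)
        else 0) +
      (∑ r, ∑ s, ∑ t, if γ t ≤ β s ∧ α r < β s then β s * γ t * α r * (Y r s * Z s t * X t r)
        else 0) +
      (∑ r, ∑ s, ∑ t, if α r < γ t ∧ β s < γ t then γ t * α r * β s * (Z s t * X t r * Y r s)
        else 0) := by
    simp only [← Finset.sum_add_distrib]
    refine Finset.sum_congr rfl fun r _ => Finset.sum_congr rfl fun s _ =>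
      Finset.sum_congr rfl fun t _ => ?_
    split_ifs with c1 c2 c3 c3 c2 c3 c3
    · linarith [c1.1, c2.2]
    · linarith [c1.1, c2.2]
    · linarith [c1.2, c3.1]
    · ring
    · linarith [c2.1, c3.2]
    · ring
    · ring
    · exfalso
      simp only [not_and, not_le, not_lt] at c1 c2 c3
      rcases le_or_gt (β s) (α r) with d1 | d1
      · have := c1 d1
        have := c3 this
        linarith
      · rcases le_or_gt (γ t) (β s) with d2 | d2
        · have := c2 d2
          linarith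
        · have := c3 (lt_trans d1 d2)
          linarith
  rw [e]
  refine le_trans (abs_add_three _ _ _) ?_
  linarith

/-- the Bellman functional -/
noncomputable def Psi {I : Type} [Fintype I] (A B C : Matrix I I ℝ) : ℝ :=
  phi2 A C + phi2 B A + phi2 C B

theorem Psi_nonneg {I : Type} [Fintype I] [DecidableEq I] (A B C : Matrix I I ℝ) :
    0 ≤ Psi A B C :=
  add_nonneg (add_nonneg (Phi_nonneg ((psd_gram _).add (psd_gram' _)))
    (Phi_nonneg ((psd_gram _).add (psd_gram' _)))) (Phi_nonneg ((psd_gram _).add (psd_gram' _)))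

/-- one-step inequality -/
theorem local_step (A B C : Matrix (Bool × J) (Bool × J) ℝ) :
    Psi A B C + 3 / 16 * |trace (sg J * A * sg J * B * sg J * C)| ≤
      2 * ∑ i, ∑ j, Psi (blk A i j) (blk B j (xor i j)) (blk C (xor i j) i) := by
  obtain ⟨sA, UA, VA, α, hα, hUA, hVA, hA⟩ := exists_svd A
  obtain ⟨sB, UB, VB, β, hβ, hUB, hVB, hB⟩ := exists_svd B
  obtain ⟨sC, UC, VC, γ, hγ, hUC, hVC, hC⟩ := exists_svd C
  have v0 := vertex hα hUA hVA hA hγ hUC hVC hC
  have v1 := vertex hβ hUB hVB hB hα hUA hVA hA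
  have v2 := vertex hγ hUC hVC hC hβ hUB hVB hB
  have t := trilinear hα hβ hγ (contr_iso hVC hUA) (contr_iso hVA hUB) (contr_iso hVB hUC)
  have e : trace (sg J * A * sg J * B * sg J * C) = ∑ r, ∑ s, ∑ t, α r * β s * γ t *
      ((VCᵀ * sg J * UA) t r * (VAᵀ * sg J * UB) r s * (VBᵀ * sg J * UC) s t) := by
    have : trace (sg J * A * sg J * B * sg J * C) = trace ((diagonal α * (VAᵀ * sg J * UB)) *
        ((diagonal β * (VBᵀ * sg J * UC)) * (diagonal γ * (VCᵀ * sg J * UA)))) := by
      calc trace (sg J * A * sg J * B * sg J * C) = trace ((sg J * UA) * (diagonal α * VAᵀ * sg J *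
            (UB * diagonal β * VBᵀ) * sg J * (UC * diagonal γ * VCᵀ))) := by
            rw [← hB, ← hC]
            conv_lhs => rw [hA]
            simp only [Matrix.mul_assoc]
        _ = _ := by
            rw [trace_mul_comm]
            simp only [Matrix.mul_assoc]
    rw [this]
    generalize VCᵀ * sg J * UA = X
    generalize VAᵀ * sg J * UB = Y
    generalize VBᵀ * sg J * UC = Z
    simp only [trace, diag_apply, Matrix.mul_apply (M := diagonal α * Y),
      Matrix.mul_apply (M := diagonal β * Z), diagonal_mul, Finset.mul_sum]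
    refine Finset.sum_congr rfl fun r _ => Finset.sum_congr rfl fun s _ =>
      Finset.sum_congr rfl fun t _ => ?_
    ring
  rw [e]
  simp only [Fintype.sum_bool, Psi, Bool.xor_true, Bool.xor_false, Bool.not_true,
    Bool.not_false] at v0 v1 v2 ⊢
  linarith

end loc

end Vale.Agent.P075
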