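import Vale.Agent.P075.Meas
import Mathlib.MeasureTheory.Function.L1Space.Integrable
import Mathlib.MeasureTheory.Function.LpSpace.Indicator
import Mathlib.Topology.Algebra.InfiniteSum.Real
import Mathlib.Topology.Algebra.InfiniteSum.Constructions

/-! The main estimate. -/

namespace Vale.Agent.P075

open MeasureTheory Set

variable {F₀ F₁ F₂ : ℝ × ℝ → ℝ}

theorem finset_bound (h₀ : Adm F₀) (h₁ : Adm F₁) (h₂ : Adm F₂) (u : Finset (ℤ × XorTriple)) :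
    ∑ p ∈ u, |formL F₀ F₁ F₂ p.1 p.2.1| ≤
      43 * ((∫ y, |F₀ y| ^ 3 ∂quad) + (∫ y, |F₁ y| ^ 3 ∂quad) + ∫ y, |F₂ y| ^ 3 ∂quad) := by
  classical
  obtain ⟨k, hk⟩ : ∃ k : ℤ, ∀ p ∈ u, k ≤ p.1 - 1 :=
    (u.finite_toSet.image fun p => p.1 - 1).bddBelow.imp fun k hk p hp =>
      hk (Set.mem_image_of_mem _ hp)
  obtain ⟨N, hN⟩ : ∃ N : ℕ, ∀ p ∈ u, (p.1 - k - 1).toNat + p.2.1.1 + p.2.1.2.1 + 1 ≤ N :=
    (u.finite_toSet.image fun p => (p.1 - k - 1).toNat + p.2.1.1 + p.2.1.2.1 + 1).bddAbove.imp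
      fun k hk p hp => hk (Set.mem_image_of_mem _ hp)
  refine le_trans ?_ (box_bound h₀ h₁ h₂ k N N)
  let φ : ℤ × XorTriple → ℕ × ℕ × ℕ := fun p => ((p.1 - k - 1).toNat, p.2.1.1, p.2.1.2.1)
  let g : ℕ × ℕ × ℕ → ℝ := fun x =>
    |formL F₀ F₁ F₂ (k + x.1 + 1) (x.2.1, x.2.2, x.2.1 ^^^ x.2.2)|
  have h3 : ∀ p : ℤ × XorTriple, p.2.1 = (p.2.1.1, p.2.1.2.1, p.2.1.1 ^^^ p.2.1.2.1) := by
    rintro ⟨k, ⟨a, b, c⟩, h⟩
    simp only [Nat.xor_eq_zero_iff] at h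
    simp [h]
  have h4 : ∀ p ∈ u, k + ((p.1 - k - 1).toNat : ℤ) + 1 = p.1 := by
    intro p hp
    have := hk p hp
    omega
  have e1 : ∑ p ∈ u, |formL F₀ F₁ F₂ p.1 p.2.1| = ∑ p ∈ u, g (φ p) := by
    refine Finset.sum_congr rfl fun p hp => ?_
    simp only [g, φ]
    rw [h4 p hp, ← h3 p]
  have hinj : Set.InjOn φ u := by
    intro p hp q hq h
    simp only [φ, Prod.mk.injEq] at h
    refine Prod.ext ?_ (Subtype.ext ?_)
    · rw [← h4 p hp, ← h4 q hq, h.1]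
    · rw [h3 p, h3 q, h.2.1, h.2.2]
  rw [e1, ← Finset.sum_image hinj]
  have e2 : ∑ j ∈ Finset.range N, ∑ n ∈ Finset.range N, ∑ m ∈ Finset.range N,
      |formL F₀ F₁ F₂ (k + j + 1) (n, m, n ^^^ m)|
      = ∑ x ∈ Finset.range N ×ˢ Finset.range N ×ˢ Finset.range N, g x := by
    simp only [Finset.sum_product, g]
  rw [e2]
  refine Finset.sum_le_sum_of_subset_of_nonneg ?_ fun _ _ _ => abs_nonneg _
  intro x hx
  obtain ⟨p, hp, rfl⟩ := Finset.mem_image.1 hx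
  have := hN p hp
  simp only [φ, Finset.mem_product, Finset.mem_range]
  omega

theorem Adm.smul {F : ℝ × ℝ → ℝ} (h : Adm F) (t : ℝ) : Adm fun y => t * F y := by
  refine ⟨h.meas.const_mul t, ?_⟩
  simp only [abs_mul, mul_pow]
  exact h.int.const_mul _

theorem formL_smul (t₀ t₁ t₂ : ℝ) (k : ℤ) (n : ℕ × ℕ × ℕ) :
    formL (fun y => t₀ * F₀ y) (fun y => t₁ * F₁ y) (fun y => t₂ * F₂ y) k n
      = t₀ * t₁ * t₂ * formL F₀ F₁ F₂ k n := by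
  unfold formL
  rw [mul_left_comm (t₀ * t₁ * t₂), ← integral_const_mul (t₀ * t₁ * t₂)]
  congr 2
  ext x
  ring

theorem homog {x C a b c : ℝ} (hC : 0 ≤ C) (ha : 0 ≤ a) (hb : 0 ≤ b) (hc : 0 ≤ c)
    (h : ∀ t₀ t₁ t₂ : ℝ, 0 < t₀ → 0 < t₁ → 0 < t₂ →
      t₀ * t₁ * t₂ * x ≤ C * (t₀ ^ 3 * a ^ 3 + t₁ ^ 3 * b ^ 3 + t₂ ^ 3 * c ^ 3)) :
    x ≤ 3 * C * (a * b * c) := by
  have key : ∀ η : ℝ, 0 < η → x ≤ 3 * C * ((a + η) * (b + η) * (c + η)) := by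
    intro η hη
    have pa : 0 < a + η := by linarith
    have pb : 0 < b + η := by linarith
    have pc : 0 < c + η := by linarith
    have h1 := h (a + η)⁻¹ (b + η)⁻¹ (c + η)⁻¹ (inv_pos.2 pa) (inv_pos.2 pb) (inv_pos.2 pc)
    have one : ∀ s : ℝ, 0 ≤ s → (s + η)⁻¹ ^ 3 * s ^ 3 ≤ 1 := by
      intro s hs
      rw [← mul_pow]
      refine pow_le_one₀ (by positivity) ?_
      rw [inv_mul_le_iff₀ (by linarith)]
      linarith
    have h2 : (a + η)⁻¹ * (b + η)⁻¹ * (c + η)⁻¹ * x ≤ 3 * C := by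
      have := mul_le_mul_of_nonneg_left (add_le_add (add_le_add (one a ha) (one b hb)) (one c hc)) hC
      linarith
    have h3 := mul_le_mul_of_nonneg_right h2 (mul_pos (mul_pos pa pb) pc).le
    have e : (a + η)⁻¹ * (b + η)⁻¹ * (c + η)⁻¹ * x * ((a + η) * (b + η) * (c + η)) = x := by
      field_simp
    rwa [e] at h3
  have hcont : Continuous fun η : ℝ => 3 * C * ((a + η) * (b + η) * (c + η)) := by fun_prop
  have ht : Filter.Tendsto (fun η : ℝ => 3 * C * ((a + η) * (b + η) * (c + η)))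
      (nhdsWithin 0 (Set.Ioi 0)) (nhds (3 * C * ((a + 0) * (b + 0) * (c + 0)))) :=
    (hcont.tendsto 0).mono_left nhdsWithin_le_nhds
  simp only [add_zero] at ht
  exact ge_of_tendsto ht (eventually_nhdsWithin_of_forall key)

theorem adm_of_memLp {F : ℝ × ℝ → ℝ} (hm : Measurable F) (h : MemLp F 3 quad) : Adm F := by
  refine ⟨hm, ?_⟩
  have h' : MemLp F ((3 : ℕ) : ENNReal) quad := by rwa [Nat.cast_ofNat]
  have h3 := MemLp.integrable_norm_pow h' (by norm_num)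
  simp only [Real.norm_eq_abs] at h3
  exact h3

theorem norm_cube {F : ℝ × ℝ → ℝ} (h : MemLp F 3 quad) :
    (eLpNorm F 3 quad).toReal ^ 3 = ∫ y, |F y| ^ 3 ∂quad := by
  rw [h.eLpNorm_eq_integral_rpow_norm (by norm_num) (by norm_num)]
  have e : ∫ y, ‖F y‖ ^ (3 : ENNReal).toReal ∂quad = ∫ y, |F y| ^ 3 ∂quad := by
    congr 1
    ext y
    rw [Real.norm_eq_abs, ← Real.rpow_natCast]
    norm_num
  have hn : 0 ≤ ∫ y, |F y| ^ 3 ∂quad := integral_nonneg fun y => by positivity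
  rw [e, ENNReal.toReal_ofReal (Real.rpow_nonneg hn _), ← Real.rpow_natCast, ← Real.rpow_mul hn]
  norm_num

theorem finset_bound' (m₀ : Measurable F₀) (m₁ : Measurable F₁) (m₂ : Measurable F₂)
    (h₀ : MemLp F₀ 3 quad) (h₁ : MemLp F₁ 3 quad) (h₂ : MemLp F₂ 3 quad)
    (u : Finset (ℤ × XorTriple)) :
    ∑ p ∈ u, |formL F₀ F₁ F₂ p.1 p.2.1| ≤ 129 *
      ((eLpNorm F₀ 3 quad).toReal * (eLpNorm F₁ 3 quad).toReal * (eLpNorm F₂ 3 quad).toReal) := by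
  have := homog (x := ∑ p ∈ u, |formL F₀ F₁ F₂ p.1 p.2.1|) (C := 43) (by norm_num)
    (ENNReal.toReal_nonneg (a := eLpNorm F₀ 3 quad))
    (ENNReal.toReal_nonneg (a := eLpNorm F₁ 3 quad))
    (ENNReal.toReal_nonneg (a := eLpNorm F₂ 3 quad)) ?_
  · linarith
  intro t₀ t₁ t₂ p₀ p₁ p₂
  have h := finset_bound ((adm_of_memLp m₀ h₀).smul t₀) ((adm_of_memLp m₁ h₁).smul t₁)
    ((adm_of_memLp m₂ h₂).smul t₂) u
  simp only [formL_smul, abs_mul, mul_pow, integral_const_mul, abs_of_pos p₀, abs_of_pos p₁,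
    abs_of_pos p₂, ← Finset.mul_sum] at h
  rw [norm_cube h₀, norm_cube h₁, norm_cube h₂]
  exact h

theorem main_abs (m₀ : Measurable F₀) (m₁ : Measurable F₁) (m₂ : Measurable F₂)
    (h₀ : MemLp F₀ 3 quad) (h₁ : MemLp F₁ 3 quad) (h₂ : MemLp F₂ 3 quad) :
    Summable (fun p : ℤ × XorTriple => |formL F₀ F₁ F₂ p.1 p.2.1|) ∧
    ∑' p : ℤ × XorTriple, |formL F₀ F₁ F₂ p.1 p.2.1| ≤ 129 *
      ((eLpNorm F₀ 3 quad).toReal * (eLpNorm F₁ 3 quad).toReal * (eLpNorm F₂ 3 quad).toReal) :=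
  ⟨summable_of_sum_le (fun _ => abs_nonneg _) (finset_bound' m₀ m₁ m₂ h₀ h₁ h₂),
    Real.tsum_le_of_sum_le (fun _ => abs_nonneg _) (finset_bound' m₀ m₁ m₂ h₀ h₁ h₂)⟩

theorem main_form (m₀ : Measurable F₀) (m₁ : Measurable F₁) (m₂ : Measurable F₂)
    (h₀ : MemLp F₀ 3 quad) (h₁ : MemLp F₁ 3 quad) (h₂ : MemLp F₂ 3 quad)
    (S : Finset ℤ) (ε : ℤ → ℝ) (hε : ∀ k, |ε k| ≤ 1) :
    (∀ k : ℤ, Summable fun n : XorTriple => formL F₀ F₁ F₂ k n.1) ∧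
    |formD S ε F₀ F₁ F₂| ≤ 129 *
      ((eLpNorm F₀ 3 quad).toReal * (eLpNorm F₁ 3 quad).toReal * (eLpNorm F₂ 3 quad).toReal) := by
  obtain ⟨hs, hb⟩ := main_abs m₀ m₁ m₂ h₀ h₁ h₂
  have hk : ∀ k : ℤ, Summable fun n : XorTriple => |formL F₀ F₁ F₂ k n.1| := fun k =>
    hs.prod_factor k
  refine ⟨fun k => (hk k).of_abs, le_trans ?_ hb⟩
  rw [hs.tsum_prod' hk]
  refine le_trans ?_ (hs.prod.sum_le_tsum S fun k _ => tsum_nonneg fun _ => abs_nonneg _)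
  unfold formD
  refine le_trans (Finset.abs_sum_le_sum_abs _ _) (Finset.sum_le_sum fun k _ => ?_)
  rw [abs_mul]
  have h1 : |∑' n : XorTriple, formL F₀ F₁ F₂ k n.1| ≤ ∑' n : XorTriple, |formL F₀ F₁ F₂ k n.1| := by
    simpa only [Real.norm_eq_abs] using norm_tsum_le_tsum_norm
      (f := fun n : XorTriple => formL F₀ F₁ F₂ k n.1) (by simpa only [Real.norm_eq_abs] using hk k)
  calc |ε k| * |∑' n : XorTriple, formL F₀ F₁ F₂ k n.1|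
      ≤ 1 * |∑' n : XorTriple, formL F₀ F₁ F₂ k n.1| :=
        mul_le_mul_of_nonneg_right (hε k) (abs_nonneg _)
    _ ≤ _ := by rw [one_mul]; exact h1

theorem memLp_of_bdd {F : ℝ × ℝ → ℝ} (hm : Measurable F) (hb : ∃ M : ℝ, ∀ y, |F y| ≤ M)
    (hc : HasCompactSupport F) : MemLp F 3 quad := by
  obtain ⟨M, hM⟩ := hb
  exact (hc.memLp_of_bound (μ := volume) hm.aestronglyMeasurable M
    (Filter.Eventually.of_forall hM)).restrict _

theorem integrableOn_integrand (m₀ : Measurable F₀) (m₁ : Measurable F₁) (m₂ : Measurable F₂)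
    (h₀ : MemLp F₀ 3 quad) (h₁ : MemLp F₁ 3 quad) (h₂ : MemLp F₂ 3 quad) (k : ℤ) (p q r : ℕ) :
    IntegrableOn (fun x : ℝ × ℝ × ℝ => F₀ (x.1, x.2.1) * F₁ (x.2.1, x.2.2) * F₂ (x.2.2, x.1))
      (dyI k p ×ˢ dyI k q ×ˢ dyI k r) :=
  ((mp3 k p q r).integrable_comp (meas_g (adm_of_memLp m₀ h₀) (adm_of_memLp m₁ h₁)
    (adm_of_memLp m₂ h₂)).aestronglyMeasurable).1
    (int_G (adm_of_memLp m₀ h₀) (adm_of_memLp m₁ h₁) (adm_of_memLp m₂ h₂) k p q r)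

end Vale.Agent.P075
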