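import Mathlib.Analysis.Matrix.Spectrum
import Mathlib.Data.Matrix.ColumnRowPartitioned
import Mathlib.Analysis.SpecialFunctions.Pow.Real
import Mathlib.Tactic

/-! Real matrix toolkit: positive semidefinite matrices, square roots, the cubic trace
functional, compact singular value decomposition, Lyapunov positivity. -/

namespace Vale.Agent.P075

open Matrix

section basic

variable {m n : Type} [Fintype m] [Fintype n]

/-- symmetric positive semidefinite real matrix -/
def PSD (M : Matrix n n ℝ) : Prop := Mᵀ = M ∧ ∀ x : n → ℝ, 0 ≤ x ⬝ᵥ (M *ᵥ x)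

theorem PSD.conj {M : Matrix n n ℝ} (h : PSD M) (B : Matrix m n ℝ) : PSD (B * M * Bᵀ) := by
  refine ⟨by simp [Matrix.transpose_mul, h.1, Matrix.mul_assoc], fun x => ?_⟩
  have := h.2 (Bᵀ *ᵥ x)
  rw [← mulVec_mulVec, ← mulVec_mulVec, dotProduct_mulVec, ← mulVec_transpose]
  exact this

theorem PSD.add {M N : Matrix n n ℝ} (h : PSD M) (h' : PSD N) : PSD (M + N) := by
  refine ⟨by simp [h.1, h'.1], fun x => ?_⟩
  rw [add_mulVec, dotProduct_add]
  exact add_nonneg (h.2 x) (h'.2 x)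

theorem PSD.smul {M : Matrix n n ℝ} (h : PSD M) {c : ℝ} (hc : 0 ≤ c) : PSD (c • M) := by
  refine ⟨by simp [h.1], fun x => ?_⟩
  rw [smul_mulVec, dotProduct_smul]
  exact mul_nonneg hc (h.2 x)

theorem PSD.diag_nonneg [DecidableEq n] {M : Matrix n n ℝ} (h : PSD M) (i : n) : 0 ≤ M i i := by
  simpa using h.2 (Pi.single i 1)

theorem PSD.trace_nonneg [DecidableEq n] {M : Matrix n n ℝ} (h : PSD M) : 0 ≤ trace M :=
  Finset.sum_nonneg fun i _ => h.diag_nonneg i

theorem psd_diagonal [DecidableEq n] {d : n → ℝ} (hd : ∀ i, 0 ≤ d i) : PSD (diagonal d) := by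
  refine ⟨by simp, fun x => ?_⟩
  simp only [dotProduct, mulVec_diagonal]
  exact Finset.sum_nonneg fun i _ => by nlinarith [hd i, mul_self_nonneg (x i)]

theorem psd_gram (W : Matrix m n ℝ) : PSD (W * Wᵀ) := by
  refine ⟨by simp [Matrix.transpose_mul], fun x => ?_⟩
  rw [← mulVec_mulVec, dotProduct_mulVec, ← mulVec_transpose]
  exact Finset.sum_nonneg fun i _ => mul_self_nonneg _

theorem psd_gram' (W : Matrix m n ℝ) : PSD (Wᵀ * W) := by
  simpa using psd_gram Wᵀ

theorem spec [DecidableEq n] {M : Matrix n n ℝ} (h : Mᵀ = M) :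
    ∃ (U : Matrix n n ℝ) (d : n → ℝ), Uᵀ * U = 1 ∧ U * Uᵀ = 1 ∧ M = U * diagonal d * Uᵀ := by
  have hH : M.IsHermitian := by
    unfold Matrix.IsHermitian
    rw [conjTranspose_eq_transpose_of_trivial, h]
  refine ⟨hH.eigenvectorUnitary, hH.eigenvalues, ?_, ?_, ?_⟩
  · have := Unitary.coe_star_mul_self hH.eigenvectorUnitary
    rwa [star_eq_conjTranspose, conjTranspose_eq_transpose_of_trivial] at this
  · have := Unitary.coe_mul_star_self hH.eigenvectorUnitary
    rwa [Unitary.coe_star, star_eq_conjTranspose, conjTranspose_eq_transpose_of_trivial] at this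
  · have := hH.spectral_theorem
    rw [Unitary.conjStarAlgAut_apply, star_eq_conjTranspose,
      conjTranspose_eq_transpose_of_trivial] at this
    simpa using this

theorem spec_psd [DecidableEq n] {M : Matrix n n ℝ} (h : PSD M) :
    ∃ (U : Matrix n n ℝ) (d : n → ℝ), (∀ i, 0 ≤ d i) ∧ Uᵀ * U = 1 ∧ U * Uᵀ = 1 ∧
      M = U * diagonal d * Uᵀ := by
  obtain ⟨U, d, h1, h2, h3⟩ := spec h.1
  refine ⟨U, d, fun i => ?_, h1, h2, h3⟩
  have h4 := (h.conj Uᵀ).diag_nonneg i
  have : Uᵀ * M * Uᵀᵀ = diagonal d := by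
    rw [h3, transpose_transpose]
    calc Uᵀ * (U * diagonal d * Uᵀ) * U = (Uᵀ * U) * diagonal d * (Uᵀ * U) := by
          simp only [Matrix.mul_assoc]
      _ = diagonal d := by rw [h1]; simp
  rw [this] at h4
  simpa using h4

theorem PSD.mulVec_eq_zero [DecidableEq n] {M : Matrix n n ℝ} (h : PSD M) {x : n → ℝ}
    (hx : x ⬝ᵥ (M *ᵥ x) ≤ 0) : M *ᵥ x = 0 := by
  obtain ⟨U, d, hd, h1, h2, h3⟩ := spec_psd h
  have e : x ⬝ᵥ (M *ᵥ x) = ∑ i, d i * ((Uᵀ *ᵥ x) i) ^ 2 := by
    rw [h3, ← mulVec_mulVec, ← mulVec_mulVec, dotProduct_mulVec, ← mulVec_transpose]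
    simp only [dotProduct, mulVec_diagonal]
    exact Finset.sum_congr rfl fun i _ => by ring
  have hz : ∀ i ∈ Finset.univ, d i * ((Uᵀ *ᵥ x) i) ^ 2 = 0 := by
    rw [← Finset.sum_eq_zero_iff_of_nonneg (fun i _ => mul_nonneg (hd i) (sq_nonneg _))]
    exact le_antisymm (e ▸ hx) (Finset.sum_nonneg fun i _ => mul_nonneg (hd i) (sq_nonneg _))
  have : diagonal d *ᵥ (Uᵀ *ᵥ x) = 0 := by
    ext i
    rw [mulVec_diagonal]
    rcases mul_eq_zero.1 (hz i (Finset.mem_univ _)) with h0 | h0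
    · simp [h0]
    · simp [pow_eq_zero_iff (two_ne_zero) |>.1 h0]
  rw [h3, ← mulVec_mulVec, ← mulVec_mulVec, this, mulVec_zero]

/-- Lyapunov positivity -/
theorem lyap [DecidableEq n] {X Y : Matrix n n ℝ} (hX : Xᵀ = X) (hY : PSD Y)
    (h : PSD (Y * X + X * Y)) (hk : ∀ x : n → ℝ, Y *ᵥ x = 0 → 0 ≤ x ⬝ᵥ (X *ᵥ x)) : PSD X := by
  obtain ⟨U, d, h1, h2, h3⟩ := spec hX
  have hd : ∀ i, 0 ≤ d i := by
    intro i
    by_contra hneg
    push Not at hneg
    set v : n → ℝ := U *ᵥ Pi.single i 1 with hv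
    have hXv : X *ᵥ v = d i • v := by
      rw [h3, hv, mulVec_mulVec]
      have : U * diagonal d * Uᵀ * U = U * diagonal d := by
        rw [Matrix.mul_assoc, h1, Matrix.mul_one]
      rw [this, ← mulVec_mulVec, diagonal_mulVec_single, ← mulVec_smul]
      congr 1
      ext j
      by_cases hj : j = i <;> simp [hj]
    have hvv : v ⬝ᵥ v = 1 := by
      rw [hv, dotProduct_mulVec, ← mulVec_transpose, mulVec_mulVec, h1]
      simp
    have h5 := h.2 v
    rw [add_mulVec, dotProduct_add, ← mulVec_mulVec, ← mulVec_mulVec, hXv, mulVec_smul,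
      dotProduct_smul, dotProduct_mulVec v X, ← mulVec_transpose, hX, hXv, smul_dotProduct] at h5
    simp only [smul_eq_mul] at h5
    have h6 : v ⬝ᵥ (Y *ᵥ v) ≤ 0 := by nlinarith [hY.2 v]
    have h7 := hk v (hY.mulVec_eq_zero h6)
    rw [hXv, dotProduct_smul, hvv] at h7
    simp at h7
    linarith
  rw [h3]
  exact (psd_diagonal hd).conj U

theorem exists_rt [DecidableEq n] {P : Matrix n n ℝ} (h : PSD P) :
    ∃ Q : Matrix n n ℝ, PSD Q ∧ Q * Q = P := by
  obtain ⟨U, d, hd, h1, h2, h3⟩ := spec_psd h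
  refine ⟨U * diagonal (fun i => √(d i)) * Uᵀ,
    (psd_diagonal fun i => Real.sqrt_nonneg _).conj U, ?_⟩
  calc U * diagonal (fun i => √(d i)) * Uᵀ * (U * diagonal (fun i => √(d i)) * Uᵀ)
      = U * (diagonal (fun i => √(d i)) * (Uᵀ * U) * diagonal (fun i => √(d i))) * Uᵀ := by
        simp only [Matrix.mul_assoc]
    _ = P := by
        rw [h1, Matrix.mul_one, diagonal_mul_diagonal, h3]
        congr 3
        ext i
        exact Real.mul_self_sqrt (hd i)

/-- Klein inequality for the cube -/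
theorem klein [DecidableEq n] {Q Y : Matrix n n ℝ} (hQ : PSD Q) (hY : PSD Y) :
    3 * trace (Q * Q * Y) - trace (Y * Y * Y) ≤ 2 * trace (Q * Q * Q) := by
  have h := ((hY.add (hQ.add hQ)).conj (Y - Q)).trace_nonneg
  rw [transpose_sub, hQ.1, hY.1] at h
  have e : (Y - Q) * (Y + (Q + Q)) * (Y - Q) = Y * Y * Y + (Y * Q * Y + Y * Q * Y) - Q * Y * Y
      - (Q * Q * Y + Q * Q * Y) - Y * Y * Q - (Y * Q * Q + Y * Q * Q) + Q * Y * Q
      + (Q * Q * Q + Q * Q * Q) := by noncomm_ring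
  rw [e] at h
  simp only [trace_add, trace_sub] at h
  have e1 : trace (Y * Q * Y) = trace (Y * Y * Q) := trace_mul_cycle Y Q Y
  have e2 : trace (Q * Y * Y) = trace (Y * Y * Q) := by
    rw [trace_mul_cycle Q Y Y, e1]
  have e3 : trace (Q * Y * Q) = trace (Q * Q * Y) := trace_mul_cycle Q Y Q
  have e4 : trace (Y * Q * Q) = trace (Q * Q * Y) := by
    rw [trace_mul_cycle Y Q Q, e3]
  linarith

open Classical in
/-- a positive square root, when there is one -/
noncomputable def rt (P : Matrix n n ℝ) : Matrix n n ℝ :=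
  if h : ∃ Q : Matrix n n ℝ, PSD Q ∧ Q * Q = P then h.choose else 0

/-- trace of the power 3/2 -/
noncomputable def Phi (P : Matrix n n ℝ) : ℝ := trace (rt P * rt P * rt P)

theorem rt_spec [DecidableEq n] {P : Matrix n n ℝ} (h : PSD P) :
    PSD (rt P) ∧ rt P * rt P = P := by
  have h' := exists_rt h
  unfold rt
  rw [dif_pos h']
  exact h'.choose_spec

theorem le_Phi [DecidableEq n] {P Y : Matrix n n ℝ} (hP : PSD P) (hY : PSD Y) :
    3 * trace (P * Y) - trace (Y * Y * Y) ≤ 2 * Phi P := by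
  have := klein (rt_spec hP).1 hY
  have e : Phi P = trace (P * rt P) := by
    unfold Phi
    rw [(rt_spec hP).2]
  rw [(rt_spec hP).2] at this
  rwa [e]

theorem PSD.sq {Q : Matrix n n ℝ} (hQ : PSD Q) : PSD (Q * Q) := by
  have := psd_gram Q
  rwa [hQ.1] at this

theorem Phi_sq [DecidableEq n] {Q : Matrix n n ℝ} (hQ : PSD Q) :
    Phi (Q * Q) = trace (Q * Q * Q) := by
  have h1 := le_Phi hQ.sq hQ
  have h2 := klein hQ (rt_spec hQ.sq).1
  have h3 : Phi (Q * Q) = trace (Q * Q * rt (Q * Q)) := by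
    unfold Phi
    rw [(rt_spec hQ.sq).2]
  have h4 : trace (rt (Q * Q) * rt (Q * Q) * rt (Q * Q)) = Phi (Q * Q) := rfl
  linarith

theorem Phi_nonneg [DecidableEq n] {P : Matrix n n ℝ} (hP : PSD P) : 0 ≤ Phi P := by
  have := ((rt_spec hP).1.conj (rt P)).trace_nonneg
  rwa [(rt_spec hP).1.1] at this

theorem Phi_smul [DecidableEq n] {P : Matrix n n ℝ} (hP : PSD P) {c : ℝ} (hc : 0 ≤ c) :
    Phi ((c * c) • P) = c ^ 3 * Phi P := by
  obtain ⟨h1, h2⟩ := rt_spec hP
  have : (c * c) • P = (c • rt P) * (c • rt P) := by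
    rw [smul_mul_smul_comm, h2]
  rw [this, Phi_sq (h1.smul hc)]
  simp only [Matrix.smul_mul, Matrix.mul_smul, trace_smul, smul_eq_mul]
  unfold Phi
  ring

theorem Phi_jensen [DecidableEq n] {X₀ X₁ : Matrix n n ℝ} (h₀ : PSD X₀) (h₁ : PSD X₁) :
    Phi ((2 : ℝ) • (X₀ + X₁)) ≤ 4 * (Phi X₀ + Phi X₁) := by
  have hP : PSD ((2 : ℝ) • (X₀ + X₁)) := (h₀.add h₁).smul (by norm_num)
  obtain ⟨h1, h2⟩ := rt_spec hP
  set Q := rt ((2 : ℝ) • (X₀ + X₁)) with hQ
  have hh : PSD ((1 / 2 : ℝ) • Q) := h1.smul (by norm_num)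
  have a0 := le_Phi h₀ hh
  have a1 := le_Phi h₁ hh
  simp only [Matrix.smul_mul, Matrix.mul_smul, trace_smul, smul_eq_mul] at a0 a1
  have e : Phi ((2 : ℝ) • (X₀ + X₁)) = trace (Q * Q * Q) := rfl
  have e2 : trace (Q * Q * Q) = 2 * (trace (X₀ * Q) + trace (X₁ * Q)) := by
    rw [h2, Matrix.smul_mul, trace_smul, Matrix.add_mul, trace_add, smul_eq_mul]
  linarith

/-- compact singular value decomposition -/
theorem exists_svd [DecidableEq m] [DecidableEq n] (W : Matrix m n ℝ) :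
    ∃ (s : Finset n) (U : Matrix m s ℝ) (V : Matrix n s ℝ) (w : s → ℝ),
      (∀ i, 0 < w i) ∧ Uᵀ * U = 1 ∧ Vᵀ * V = 1 ∧ W = U * diagonal w * Vᵀ := by
  obtain ⟨V₀, d, hd, h1, h2, h3⟩ := spec_psd (psd_gram' W)
  have hG : (W * V₀)ᵀ * (W * V₀) = diagonal d := by
    calc (W * V₀)ᵀ * (W * V₀) = V₀ᵀ * (Wᵀ * W) * V₀ := by
          simp only [Matrix.transpose_mul, Matrix.mul_assoc]
      _ = (V₀ᵀ * V₀) * diagonal d * (V₀ᵀ * V₀) := by
          rw [h3]; simp only [Matrix.mul_assoc]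
      _ = diagonal d := by rw [h1]; simp
  let s : Finset n := Finset.univ.filter fun i => d i ≠ 0
  have hs : ∀ i : s, 0 < d i := fun i =>
    lt_of_le_of_ne (hd i) (Ne.symm (Finset.mem_filter.1 i.2).2)
  have hw : ∀ i : s, 0 < √(d i) := fun i => Real.sqrt_pos.2 (hs i)
  refine ⟨s, Matrix.of fun a i => (W * V₀) a i / √(d i), V₀.submatrix id (fun i : s => (i : n)),
    fun i => √(d i), hw, ?_, ?_, ?_⟩
  · ext i j
    have := congrFun (congrFun hG i) j
    simp only [Matrix.mul_apply (M := (W * V₀)ᵀ), transpose_apply] at this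
    simp only [Matrix.mul_apply (M := (Matrix.of _)ᵀ), transpose_apply, of_apply,
      div_mul_div_comm, ← Finset.sum_div, this]
    by_cases hij : i = j
    · subst hij
      simp only [diagonal_apply_eq, one_apply_eq]
      rw [Real.mul_self_sqrt (hd i), div_self (hs i).ne']
    · have : (i : n) ≠ j := fun h => hij (Subtype.ext h)
      simp [diagonal_apply_ne _ this, one_apply_ne hij]
  · ext i j
    have := congrFun (congrFun h1 i) j
    simp only [Matrix.mul_apply, transpose_apply] at this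
    simp only [Matrix.mul_apply, transpose_apply, submatrix_apply, id, this]
    by_cases hij : i = j
    · subst hij; simp
    · have : (i : n) ≠ j := fun h => hij (Subtype.ext h)
      simp [one_apply_ne this, one_apply_ne hij]
  · ext a b
    have e : W = (W * V₀) * V₀ᵀ := by rw [Matrix.mul_assoc, h2, Matrix.mul_one]
    conv_lhs => rw [e]
    simp only [Matrix.mul_apply (N := V₀ᵀ), Matrix.mul_apply (N := (V₀.submatrix _ _)ᵀ),
      transpose_apply, submatrix_apply, id, mul_diagonal, of_apply]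
    have hz : ∀ i, i ∉ s → (W * V₀) a i = 0 := by
      intro i hi
      have hdi : d i = 0 := by simpa [s] using hi
      have := congrFun (congrFun hG i) i
      simp only [Matrix.mul_apply (M := (W * V₀)ᵀ), transpose_apply, diagonal_apply_eq, hdi] at this
      rw [Finset.sum_eq_zero_iff_of_nonneg (fun i _ => mul_self_nonneg _)] at this
      exact mul_self_eq_zero.1 (this a (Finset.mem_univ _))
    rw [← Finset.sum_subset (Finset.subset_univ s) (fun i _ hi => by rw [hz i hi, zero_mul]),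
      ← Finset.sum_coe_sort s]
    refine Finset.sum_congr rfl fun i _ => ?_
    rw [div_mul_cancel₀ _ (hw i).ne']

theorem Phi_iso [DecidableEq m] [DecidableEq n] (U : Matrix m n ℝ) (hU : Uᵀ * U = 1) {w : n → ℝ}
    (hw : ∀ i, 0 ≤ w i) :
    Phi (U * diagonal w * diagonal w * Uᵀ) = trace (diagonal w * diagonal w * diagonal w) := by
  have hQ : PSD (U * diagonal w * Uᵀ) := (psd_diagonal hw).conj U
  have e : U * diagonal w * diagonal w * Uᵀ = (U * diagonal w * Uᵀ) * (U * diagonal w * Uᵀ) := by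
    calc U * diagonal w * diagonal w * Uᵀ = U * diagonal w * (Uᵀ * U) * diagonal w * Uᵀ := by
          rw [hU, Matrix.mul_one]
      _ = _ := by simp only [Matrix.mul_assoc]
  rw [e, Phi_sq hQ, ← e]
  calc trace (U * diagonal w * diagonal w * Uᵀ * (U * diagonal w * Uᵀ))
      = trace (U * (diagonal w * diagonal w * (Uᵀ * U) * diagonal w * Uᵀ)) := by
        simp only [Matrix.mul_assoc]
    _ = trace ((diagonal w * diagonal w * (Uᵀ * U) * diagonal w * Uᵀ) * U) := trace_mul_comm _ _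
    _ = _ := by rw [Matrix.mul_assoc _ Uᵀ U, hU, Matrix.mul_one, Matrix.mul_one]

theorem Phi_comm [DecidableEq m] [DecidableEq n] (W : Matrix m n ℝ) :
    Phi (W * Wᵀ) = Phi (Wᵀ * W) := by
  obtain ⟨s, U, V, w, hw, hU, hV, hW⟩ := exists_svd W
  have e1 : W * Wᵀ = U * diagonal w * diagonal w * Uᵀ := by
    calc W * Wᵀ = U * diagonal w * (Vᵀ * V) * diagonal w * Uᵀ := by
          rw [hW]; simp only [Matrix.transpose_mul, transpose_transpose, diagonal_transpose,
            Matrix.mul_assoc]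
      _ = _ := by rw [hV, Matrix.mul_one]
  have e2 : Wᵀ * W = V * diagonal w * diagonal w * Vᵀ := by
    calc Wᵀ * W = V * diagonal w * (Uᵀ * U) * diagonal w * Vᵀ := by
          rw [hW]; simp only [Matrix.transpose_mul, transpose_transpose, diagonal_transpose,
            Matrix.mul_assoc]
      _ = _ := by rw [hU, Matrix.mul_one]
  rw [e1, e2, Phi_iso U hU (fun i => (hw i).le), Phi_iso V hV (fun i => (hw i).le)]

theorem Phi_comm_two [DecidableEq m] [DecidableEq n] (W : Matrix m n ℝ) :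
    Phi ((2 : ℝ) • (W * Wᵀ)) = Phi ((2 : ℝ) • (Wᵀ * W)) := by
  have h2 : (2 : ℝ) = √2 * √2 := (Real.mul_self_sqrt (by norm_num)).symm
  rw [h2, Phi_smul (psd_gram W) (Real.sqrt_nonneg _), Phi_smul (psd_gram' W) (Real.sqrt_nonneg _),
    Phi_comm]

end basic

end Vale.Agent.P075
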