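import Vale.Agent.P075.Discrete
import Vale.Agent.P075.Defs
import Mathlib.MeasureTheory.Measure.WithDensity
import Mathlib.MeasureTheory.Group.Measure
import Mathlib.MeasureTheory.Measure.Haar.OfBasis

/-! Reduction of the dyadic form to the discrete estimate by Fubini and translation. -/

namespace Vale.Agent.P075

open MeasureTheory Set

theorem two_zpow_pos (k : ℤ) : (0 : ℝ) < 2 ^ k := zpow_pos (by norm_num) k

theorem meas_dyI (k : ℤ) (n : ℕ) : MeasurableSet (dyI k n) := measurableSet_Ico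

theorem dyI_left (k : ℤ) (n : ℕ) :
    Set.Ico ((2 : ℝ) ^ (k + 1) * n) ((2 : ℝ) ^ (k + 1) * (n + 1 / 2)) = dyI k (Nat.bit false n) := by
  unfold dyI
  rw [zpow_add_one₀ (by norm_num), Nat.bit_val]
  congr 1 <;> push_cast <;> simp <;> ring

theorem dyI_right (k : ℤ) (n : ℕ) :
    Set.Ico ((2 : ℝ) ^ (k + 1) * (n + 1 / 2)) ((2 : ℝ) ^ (k + 1) * (n + 1))
      = dyI k (Nat.bit true n) := by
  unfold dyI
  rw [zpow_add_one₀ (by norm_num), Nat.bit_val]
  congr 1 <;> push_cast <;> simp <;> ring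

/-- indicator of a dyadic interval -/
noncomputable def chi (k : ℤ) (n : ℕ) (x : ℝ) : ℝ := (dyI k n).indicator 1 x

theorem haar_eq (k : ℤ) (n : ℕ) (x : ℝ) :
    haar (k + 1) n x = chi k (Nat.bit false n) x - chi k (Nat.bit true n) x := by
  unfold haar chi
  rw [dyI_left, dyI_right]

theorem chi_succ (k : ℤ) (n : ℕ) (x : ℝ) :
    chi (k + 1) n x = chi k (Nat.bit false n) x + chi k (Nat.bit true n) x := by
  unfold chi
  rw [← dyI_left, ← dyI_right]
  have hp := two_zpow_pos (k + 1)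
  have h1 : (2 : ℝ) ^ (k + 1) * n ≤ (2 : ℝ) ^ (k + 1) * (n + 1 / 2) := by nlinarith
  have h2 : (2 : ℝ) ^ (k + 1) * (n + 1 / 2) ≤ (2 : ℝ) ^ (k + 1) * (n + 1) := by nlinarith
  unfold dyI
  rw [← Set.Ico_union_Ico_eq_Ico h1 h2, Set.indicator_union_of_disjoint]
  exact Set.Ico_disjoint_Ico_same

theorem chi_sum (k : ℤ) (j n : ℕ) (x : ℝ) :
    chi (k + j) n x = ∑ t : Tr j, chi k (pos j n t) x := by
  induction j generalizing n with
  | zero =>
    have : ∑ t : Tr 0, chi k (pos 0 n t) x = ∑ _t : Unit, chi k n x := rfl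
    rw [this]; simp
  | succ j ih =>
    have : ∑ t : Tr (j + 1), chi k (pos (j + 1) n t) x
      = ∑ t : Bool × Tr j, chi k (pos j (Nat.bit t.1 n) t.2) x := rfl
    rw [this, Fintype.sum_prod_type, Fintype.sum_bool]
    dsimp only
    rw [← ih, ← ih, Nat.cast_succ, ← add_assoc, chi_succ, add_comm]

theorem haar_sum (k : ℤ) (j n : ℕ) (x : ℝ) :
    haar (k + j + 1) n x = ∑ t : Bool × Tr j, sgn t.1 * chi k (pos' j n t) x := by
  rw [haar_eq, chi_sum, chi_sum, Fintype.sum_prod_type, Fintype.sum_bool]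
  simp only [sgn, pos', if_true, Bool.false_eq_true, if_false, neg_mul, one_mul,
    Finset.sum_neg_distrib]
  ring

theorem haar_zero {k : ℤ} {n : ℕ} {x : ℝ} (hx : x ∉ dyI k n) : haar k n x = 0 := by
  have hp := two_zpow_pos k
  have h1 : (2 : ℝ) ^ k * n ≤ (2 : ℝ) ^ k * (n + 1 / 2) := by nlinarith
  have h2 : (2 : ℝ) ^ k * (n + 1 / 2) ≤ (2 : ℝ) ^ k * (n + 1) := by nlinarith
  unfold dyI at hx
  rw [← Set.Ico_union_Ico_eq_Ico h1 h2, Set.mem_union, not_or] at hx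
  unfold haar
  rw [Set.indicator_of_notMem hx.1, Set.indicator_of_notMem hx.2, sub_zero]

/-- Lebesgue measure on a dyadic interval -/
noncomputable def nu (k : ℤ) (n : ℕ) : Measure ℝ := volume.restrict (dyI k n)

theorem nu_univ (k : ℤ) (n : ℕ) : nu k n univ = ENNReal.ofReal (2 ^ k) := by
  unfold nu dyI
  rw [Measure.restrict_apply_univ, Real.volume_Ico]
  congr 1
  ring

instance (k : ℤ) (n : ℕ) : IsFiniteMeasure (nu k n) :=
  ⟨by rw [nu_univ]; exact ENNReal.ofReal_lt_top⟩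

/-- translation -/
noncomputable def sh (k : ℤ) (n : ℕ) (u : ℝ) : ℝ := u + 2 ^ k * n

theorem meas_sh (k : ℤ) (n : ℕ) : Measurable (sh k n) := measurable_add_const _

theorem mp_sh (k : ℤ) (n : ℕ) : MeasurePreserving (sh k n) (nu k 0) (nu k n) := by
  have h := (measurePreserving_add_right (volume : Measure ℝ) ((2 : ℝ) ^ k * n)).restrict_preimage
    (meas_dyI k n)
  have e : (fun x : ℝ => x + 2 ^ k * n) ⁻¹' dyI k n = dyI k 0 := by
    unfold dyI
    rw [Set.preimage_add_const_Ico]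
    congr 1 <;> push_cast <;> ring
  rw [e] at h
  exact h

/-- Lebesgue measure on the base cube -/
noncomputable def mu0 (k : ℤ) : Measure (ℝ × ℝ × ℝ) := (nu k 0).prod ((nu k 0).prod (nu k 0))

theorem mp3 (k : ℤ) (p q r : ℕ) : MeasurePreserving (Prod.map (sh k p) (Prod.map (sh k q) (sh k r)))
    (mu0 k) (volume.restrict (dyI k p ×ˢ dyI k q ×ˢ dyI k r)) := by
  have e : (nu k p).prod ((nu k q).prod (nu k r))
      = volume.restrict (dyI k p ×ˢ dyI k q ×ˢ dyI k r) := by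
    unfold nu
    rw [Measure.prod_restrict, Measure.prod_restrict]
    rfl
  rw [← e]
  exact (mp_sh k p).prod ((mp_sh k q).prod (mp_sh k r))

theorem mp_fst (k : ℤ) (p : ℕ) : MeasurePreserving (fun u : ℝ × ℝ => sh k p u.1)
    ((nu k 0).prod (nu k 0)) (ENNReal.ofReal (2 ^ k) • nu k p) := by
  have h1 : MeasurePreserving Prod.fst ((nu k 0).prod (nu k 0))
      (ENNReal.ofReal (2 ^ k) • nu k 0) := ⟨measurable_fst, by rw [Measure.map_fst_prod, nu_univ]⟩
  exact ((mp_sh k p).smul_measure _).comp h1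

theorem mp_snd (k : ℤ) (p : ℕ) : MeasurePreserving (fun u : ℝ × ℝ => sh k p u.2)
    ((nu k 0).prod (nu k 0)) (ENNReal.ofReal (2 ^ k) • nu k p) := by
  have h1 : MeasurePreserving Prod.snd ((nu k 0).prod (nu k 0))
      (ENNReal.ofReal (2 ^ k) • nu k 0) := ⟨measurable_snd, by rw [Measure.map_snd_prod, nu_univ]⟩
  exact ((mp_sh k p).smul_measure _).comp h1

/-- Lebesgue measure on a dyadic square, scaled -/
noncomputable def sqm (k : ℤ) (p q : ℕ) : Measure (ℝ × ℝ) :=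
  ENNReal.ofReal (2 ^ k) • volume.restrict (dyI k p ×ˢ dyI k q)

theorem sqm_eq (k : ℤ) (p q : ℕ) : sqm k p q = ENNReal.ofReal (2 ^ k) • (nu k p).prod (nu k q) := by
  unfold sqm nu
  rw [Measure.prod_restrict]
  rfl

theorem mp01 (k : ℤ) (p q : ℕ) : MeasurePreserving
    (fun u : ℝ × ℝ × ℝ => (sh k p u.1, sh k q u.2.1)) (mu0 k) (sqm k p q) := by
  have := (mp_sh k p).prod (mp_fst k q)
  rw [Measure.prod_smul_right] at this
  rw [sqm_eq]
  exact this

theorem mp12 (k : ℤ) (p q : ℕ) : MeasurePreserving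
    (fun u : ℝ × ℝ × ℝ => (sh k p u.2.1, sh k q u.2.2)) (mu0 k) (sqm k p q) := by
  have h1 : MeasurePreserving Prod.snd (mu0 k)
      (ENNReal.ofReal (2 ^ k) • (nu k 0).prod (nu k 0)) :=
    ⟨measurable_snd, by unfold mu0; rw [Measure.map_snd_prod, nu_univ]⟩
  rw [sqm_eq]
  exact (((mp_sh k p).prod (mp_sh k q)).smul_measure _).comp h1

theorem mp20 (k : ℤ) (p q : ℕ) : MeasurePreserving
    (fun u : ℝ × ℝ × ℝ => (sh k p u.2.2, sh k q u.1)) (mu0 k) (sqm k p q) := by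
  have := (mp_sh k q).prod (mp_snd k p)
  rw [Measure.prod_smul_right] at this
  rw [sqm_eq]
  exact ((Measure.measurePreserving_swap (μ := nu k q) (ν := nu k p)).smul_measure _).comp this

theorem mp_integral {α β : Type} [MeasurableSpace α] [MeasurableSpace β] {μ : Measure α}
    {ν : Measure β} {φ : α → β} (h : MeasurePreserving φ μ ν) {f : β → ℝ} (hf : Measurable f) :
    ∫ x, f (φ x) ∂μ = ∫ y, f y ∂ν := by
  rw [← h.map_eq, integral_map h.measurable.aemeasurable hf.aestronglyMeasurable]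

theorem sq_subset (k : ℤ) (p q : ℕ) : dyI k p ×ˢ dyI k q ⊆ Set.Ici (0 : ℝ) ×ˢ Set.Ici (0 : ℝ) := by
  have hp := two_zpow_pos k
  rintro ⟨x, y⟩ ⟨hx, hy⟩
  exact ⟨le_trans (by positivity) hx.1, le_trans (by positivity) hy.1⟩

theorem dyI_disjoint (k : ℤ) {p q : ℕ} (h : p ≠ q) : Disjoint (dyI k p) (dyI k q) := by
  have hp := two_zpow_pos k
  wlog hpq : p < q generalizing p q
  · exact (this h.symm (lt_of_le_of_ne (not_lt.1 hpq) h.symm)).symm
  rw [Set.disjoint_left]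
  intro x hx hy
  have h1 : (p : ℝ) + 1 ≤ q := by exact_mod_cast hpq
  have h2 := hx.2
  have h3 := hy.1
  nlinarith

/-- admissible inputs -/
structure Adm (F : ℝ × ℝ → ℝ) : Prop where
  meas : Measurable F
  int : Integrable (fun y => |F y| ^ 3) quad

theorem Adm.meas3 {F : ℝ × ℝ → ℝ} (h : Adm F) : Measurable fun y => |F y| ^ 3 :=
  (continuous_abs.measurable.comp h.meas).pow_const 3

theorem Adm.int_sq {F : ℝ × ℝ → ℝ} (h : Adm F) (k : ℤ) (p q : ℕ) :
    Integrable (fun y => |F y| ^ 3) (sqm k p q) :=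
  (IntegrableOn.mono_set h.int (sq_subset k p q)).smul_measure ENNReal.ofReal_ne_top

theorem Adm.sum_sq {F : ℝ × ℝ → ℝ} (h : Adm F) (k : ℤ) (s : Finset (ℕ × ℕ)) (e : ℕ × ℕ → ℕ × ℕ)
    (he : Function.Injective e) :
    ∑ x ∈ s, ∫ y, |F y| ^ 3 ∂(sqm k (e x).1 (e x).2) ≤ 2 ^ k * ∫ y, |F y| ^ 3 ∂quad := by
  simp only [sqm, integral_smul_measure, ENNReal.toReal_ofReal (two_zpow_pos k).le, smul_eq_mul,
    ← Finset.mul_sum]
  refine mul_le_mul_of_nonneg_left ?_ (two_zpow_pos k).le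
  rw [← integral_biUnion_finset s (s := fun x => dyI k (e x).1 ×ˢ dyI k (e x).2)
    (fun x _ => (meas_dyI _ _).prod (meas_dyI _ _)) ?_
    (fun x _ => IntegrableOn.mono_set h.int (sq_subset k _ _))]
  · refine setIntegral_mono_set h.int (Filter.Eventually.of_forall fun y => by positivity)
      (LE.le.eventuallyLE ?_)
    exact Set.iUnion₂_subset fun x _ => sq_subset k _ _
  · intro x _ y _ hxy
    have hne : e x ≠ e y := fun h => hxy (he h)
    simp only [Function.onFun]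
    rw [Set.disjoint_prod]
    by_cases h1 : (e x).1 = (e y).1
    · right
      exact dyI_disjoint k fun h2 => hne (Prod.ext h1 h2)
    · left
      exact dyI_disjoint k h1

theorem amgm3 (a b c : ℝ) : |a * b * c| ≤ |a| ^ 3 + |b| ^ 3 + |c| ^ 3 := by
  rw [abs_mul, abs_mul]
  have ha := abs_nonneg a
  have hb := abs_nonneg b
  have hc := abs_nonneg c
  generalize |a| = x at *
  generalize |b| = y at *
  generalize |c| = z at *
  have h1 : 0 ≤ (x + y + z) * ((x - y) ^ 2 + (y - z) ^ 2 + (z - x) ^ 2) := by positivity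
  have h2 : 0 ≤ x * y * z := by positivity
  nlinarith

section main

variable {F₀ F₁ F₂ : ℝ × ℝ → ℝ}

/-- sampled arrays -/
noncomputable def smp (F : ℝ × ℝ → ℝ) (k : ℤ) (a b : ℝ) (p q : ℕ) : ℝ := F (sh k p a, sh k q b)

theorem int_G (h₀ : Adm F₀) (h₁ : Adm F₁) (h₂ : Adm F₂) (k : ℤ) (p q r : ℕ) :
    Integrable (fun u : ℝ × ℝ × ℝ => smp F₀ k u.1 u.2.1 p q * smp F₁ k u.2.1 u.2.2 q r *
      smp F₂ k u.2.2 u.1 r p) (mu0 k) := by
  have i0 := (mp01 k p q).integrable_comp_of_integrable (h₀.int_sq k p q)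
  have i1 := (mp12 k q r).integrable_comp_of_integrable (h₁.int_sq k q r)
  have i2 := (mp20 k r p).integrable_comp_of_integrable (h₂.int_sq k r p)
  refine Integrable.mono' ((i0.add i1).add i2) ?_ (Filter.Eventually.of_forall fun u => ?_)
  · exact (((h₀.meas.comp (mp01 k p q).measurable).mul
      (h₁.meas.comp (mp12 k q r).measurable)).mul
      (h₂.meas.comp (mp20 k r p).measurable)).aestronglyMeasurable
  · exact amgm3 _ _ _

theorem meas_g (h₀ : Adm F₀) (h₁ : Adm F₁) (h₂ : Adm F₂) :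
    Measurable fun x : ℝ × ℝ × ℝ => F₀ (x.1, x.2.1) * F₁ (x.2.1, x.2.2) * F₂ (x.2.2, x.1) :=
  ((h₀.meas.comp (by fun_prop)).mul (h₁.meas.comp (by fun_prop))).mul (h₂.meas.comp (by fun_prop))

theorem formL_eq (h₀ : Adm F₀) (h₁ : Adm F₁) (h₂ : Adm F₂) (k : ℤ) (j n m : ℕ) :
    formL F₀ F₁ F₂ (k + j + 1) (n, m, n ^^^ m) = 2 ^ (-(k + j + 1)) *
      ∫ u, tau (smp F₀ k u.1 u.2.1) (smp F₁ k u.2.1 u.2.2) (smp F₂ k u.2.2 u.1) j n m ∂(mu0 k) := by
  unfold formL
  congr 1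
  set g : ℝ × ℝ × ℝ → ℝ := fun x => F₀ (x.1, x.2.1) * F₁ (x.2.1, x.2.2) * F₂ (x.2.2, x.1) with hg
  have hgm : Measurable g := meas_g h₀ h₁ h₂
  have hint : ∀ p q r, IntegrableOn g (dyI k p ×ˢ dyI k q ×ˢ dyI k r) := fun p q r =>
    ((mp3 k p q r).integrable_comp hgm.aestronglyMeasurable).1 (int_G h₀ h₁ h₂ k p q r)
  have hms : ∀ p q r, MeasurableSet (dyI k p ×ˢ dyI k q ×ˢ dyI k r) := fun p q r =>
    (meas_dyI _ _).prod ((meas_dyI _ _).prod (meas_dyI _ _))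
  rw [setIntegral_eq_integral_of_forall_compl_eq_zero]
  swap
  · intro x hx
    simp only [Set.mem_prod, not_and_or] at hx
    rcases hx with hx | hx | hx <;> simp [haar_zero hx]
  have e : ∀ x : ℝ × ℝ × ℝ, g x * (haar (k + j + 1) n x.1 * haar (k + j + 1) m x.2.1 *
      haar (k + j + 1) (n ^^^ m) x.2.2) = ∑ a : Bool × Tr j, ∑ b : Bool × Tr j, ∑ c : Bool × Tr j,
        sgn a.1 * sgn b.1 * sgn c.1 * (dyI k (pos' j n a) ×ˢ dyI k (pos' j m b) ×ˢ
          dyI k (pos' j (n ^^^ m) c)).indicator g x := by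
    intro x
    rw [haar_sum, haar_sum, haar_sum, Finset.sum_mul, Finset.sum_mul, Finset.mul_sum]
    refine Finset.sum_congr rfl fun a _ => ?_
    rw [Finset.mul_sum (a := sgn a.1 * chi k (pos' j n a) x.1), Finset.sum_mul, Finset.mul_sum]
    refine Finset.sum_congr rfl fun b _ => ?_
    rw [Finset.mul_sum, Finset.mul_sum]
    refine Finset.sum_congr rfl fun c _ => ?_
    unfold chi
    by_cases c0 : x.1 ∈ dyI k (pos' j n a) <;> by_cases c1 : x.2.1 ∈ dyI k (pos' j m b) <;>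
      by_cases c2 : x.2.2 ∈ dyI k (pos' j (n ^^^ m) c) <;>
      simp [Set.indicator, Set.mem_prod, c0, c1, c2]
    ring
  have e' : (fun x : ℝ × ℝ × ℝ => F₀ (x.1, x.2.1) * F₁ (x.2.1, x.2.2) * F₂ (x.2.2, x.1) *
      (haar (k + j + 1) n x.1 * haar (k + j + 1) m x.2.1 * haar (k + j + 1) (n ^^^ m) x.2.2))
      = fun x => ∑ a : Bool × Tr j, ∑ b : Bool × Tr j, ∑ c : Bool × Tr j,
        sgn a.1 * sgn b.1 * sgn c.1 * (dyI k (pos' j n a) ×ˢ dyI k (pos' j m b) ×ˢ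
          dyI k (pos' j (n ^^^ m) c)).indicator g x := funext e
  rw [e']
  have I1 : ∀ a b c : Bool × Tr j, Integrable fun x =>
      sgn a.1 * sgn b.1 * sgn c.1 * (dyI k (pos' j n a) ×ˢ dyI k (pos' j m b) ×ˢ
          dyI k (pos' j (n ^^^ m) c)).indicator g x := fun a b c =>
    ((hint _ _ _).integrable_indicator (hms _ _ _)).const_mul _
  have I2 : ∀ a b c : Bool × Tr j, Integrable (fun u : ℝ × ℝ × ℝ =>
      sgn a.1 * sgn b.1 * sgn c.1 * (smp F₀ k u.1 u.2.1 (pos' j n a) (pos' j m b) *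
        smp F₁ k u.2.1 u.2.2 (pos' j m b) (pos' j (n ^^^ m) c) *
        smp F₂ k u.2.2 u.1 (pos' j (n ^^^ m) c) (pos' j n a))) (mu0 k) := fun a b c =>
    (int_G h₀ h₁ h₂ k _ _ _).const_mul _
  unfold tau
  rw [integral_finsetSum _ fun a _ => integrable_finsetSum _ fun b _ =>
    integrable_finsetSum _ fun c _ => I1 a b c,
    integral_finsetSum _ fun a _ => integrable_finsetSum _ fun b _ =>
    integrable_finsetSum _ fun c _ => I2 a b c]
  refine Finset.sum_congr rfl fun a _ => ?_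
  rw [integral_finsetSum _ fun b _ => integrable_finsetSum _ fun c _ => I1 a b c,
    integral_finsetSum _ fun b _ => integrable_finsetSum _ fun c _ => I2 a b c]
  refine Finset.sum_congr rfl fun b _ => ?_
  rw [integral_finsetSum _ fun c _ => I1 a b c, integral_finsetSum _ fun c _ => I2 a b c]
  refine Finset.sum_congr rfl fun c _ => ?_
  rw [integral_const_mul, integral_const_mul, integral_indicator (hms _ _ _),
    ← mp_integral (mp3 k _ _ _) hgm]
  rfl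

theorem int_tau (h₀ : Adm F₀) (h₁ : Adm F₁) (h₂ : Adm F₂) (k : ℤ) (j n m : ℕ) :
    Integrable (fun u : ℝ × ℝ × ℝ =>
      tau (smp F₀ k u.1 u.2.1) (smp F₁ k u.2.1 u.2.2) (smp F₂ k u.2.2 u.1) j n m) (mu0 k) :=
  integrable_finsetSum _ fun _ _ => integrable_finsetSum _ fun _ _ =>
    integrable_finsetSum _ fun _ _ => (int_G h₀ h₁ h₂ k _ _ _).const_mul _

theorem box_bound (h₀ : Adm F₀) (h₁ : Adm F₁) (h₂ : Adm F₂) (k : ℤ) (K N : ℕ) :
    ∑ j ∈ Finset.range K, ∑ n ∈ Finset.range N, ∑ m ∈ Finset.range N,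
      |formL F₀ F₁ F₂ (k + j + 1) (n, m, n ^^^ m)| ≤
      43 * ((∫ y, |F₀ y| ^ 3 ∂quad) + (∫ y, |F₁ y| ^ 3 ∂quad) + ∫ y, |F₂ y| ^ 3 ∂quad) := by
  have hp := two_zpow_pos k
  set t : ℕ → ℕ → ℕ → ℝ × ℝ × ℝ → ℝ := fun j n m u =>
    tau (smp F₀ k u.1 u.2.1) (smp F₁ k u.2.1 u.2.2) (smp F₂ k u.2.2 u.1) j n m with ht
  have it : ∀ j n m, Integrable (fun u => |t j n m u|) (mu0 k) := fun j n m =>
    (int_tau h₀ h₁ h₂ k j n m).abs
  have s1 : ∀ j n m : ℕ, 2 ^ k * |formL F₀ F₁ F₂ (k + j + 1) (n, m, n ^^^ m)| ≤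
      (1 / 2) ^ (j + 1) * ∫ u, |t j n m u| ∂(mu0 k) := by
    intro j n m
    rw [formL_eq h₀ h₁ h₂, abs_mul, abs_of_pos (two_zpow_pos _), ← mul_assoc]
    have : (2 : ℝ) ^ k * 2 ^ (-(k + j + 1)) = (1 / 2) ^ (j + 1) := by
      rw [← zpow_add₀ (by norm_num), one_div, inv_pow, ← zpow_natCast, ← zpow_neg]
      congr 1
      push_cast
      ring
    rw [this]
    exact mul_le_mul_of_nonneg_left abs_integral_le_integral_abs (by positivity)
  have i0 := fun p q => (mp01 k p q).integrable_comp_of_integrable (h₀.int_sq k p q)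
  have i1 := fun q r => (mp12 k q r).integrable_comp_of_integrable (h₁.int_sq k q r)
  have i2 := fun r p => (mp20 k r p).integrable_comp_of_integrable (h₂.int_sq k r p)
  have i3 : ∀ n m, Integrable (fun u : ℝ × ℝ × ℝ => |smp F₀ k u.1 u.2.1 n m| ^ 3 +
      |smp F₁ k u.2.1 u.2.2 m (n ^^^ m)| ^ 3 + |smp F₂ k u.2.2 u.1 (n ^^^ m) n| ^ 3) (mu0 k) :=
    fun n m => ((i0 n m).add (i1 m (n ^^^ m))).add (i2 (n ^^^ m) n)
  have s2 : ∑ j ∈ Finset.range K, ∑ n ∈ Finset.range N, ∑ m ∈ Finset.range N,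
      (1 / 2 : ℝ) ^ (j + 1) * ∫ u, |t j n m u| ∂(mu0 k) =
      ∫ u, ∑ j ∈ Finset.range K, (1 / 2) ^ (j + 1) * ∑ n ∈ Finset.range N,
        ∑ m ∈ Finset.range N, |t j n m u| ∂(mu0 k) := by
    rw [integral_finsetSum _ fun j _ => (integrable_finsetSum _ fun n _ =>
      integrable_finsetSum _ fun m _ => it j n m).const_mul _]
    refine Finset.sum_congr rfl fun j _ => ?_
    rw [integral_const_mul, integral_finsetSum _ fun n _ =>
      integrable_finsetSum _ fun m _ => it j n m, Finset.mul_sum]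
    refine Finset.sum_congr rfl fun n _ => ?_
    rw [integral_finsetSum _ fun m _ => it j n m, Finset.mul_sum]
  set R := Finset.range (2 ^ K * N) with hR
  have s3 : ∫ u, ∑ j ∈ Finset.range K, (1 / 2) ^ (j + 1) * ∑ n ∈ Finset.range N,
        ∑ m ∈ Finset.range N, |t j n m u| ∂(mu0 k) ≤
      ∫ u, 43 * ∑ n ∈ R, ∑ m ∈ R, (|smp F₀ k u.1 u.2.1 n m| ^ 3 +
        |smp F₁ k u.2.1 u.2.2 m (n ^^^ m)| ^ 3 + |smp F₂ k u.2.2 u.1 (n ^^^ m) n| ^ 3) ∂(mu0 k) := by
    refine integral_mono (integrable_finsetSum _ fun j _ => (integrable_finsetSum _ fun n _ =>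
      integrable_finsetSum _ fun m _ => it j n m).const_mul _)
      ((integrable_finsetSum _ fun n _ =>
      integrable_finsetSum _ fun m _ => i3 n m).const_mul _) fun u => ?_
    exact discrete _ _ _ K N
  have s4 : ∫ u, 43 * ∑ n ∈ R, ∑ m ∈ R, (|smp F₀ k u.1 u.2.1 n m| ^ 3 +
        |smp F₁ k u.2.1 u.2.2 m (n ^^^ m)| ^ 3 + |smp F₂ k u.2.2 u.1 (n ^^^ m) n| ^ 3) ∂(mu0 k)
      = 43 * ((∑ x ∈ R ×ˢ R, ∫ y, |F₀ y| ^ 3 ∂(sqm k x.1 x.2)) +
        (∑ x ∈ R ×ˢ R, ∫ y, |F₁ y| ^ 3 ∂(sqm k x.2 (x.1 ^^^ x.2))) +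
        ∑ x ∈ R ×ˢ R, ∫ y, |F₂ y| ^ 3 ∂(sqm k (x.1 ^^^ x.2) x.1)) := by
    rw [integral_const_mul, integral_finsetSum _ fun n _ =>
      integrable_finsetSum _ fun m _ => i3 n m, ← Finset.sum_add_distrib,
      ← Finset.sum_add_distrib, Finset.sum_product]
    congr 1
    refine Finset.sum_congr rfl fun n _ => ?_
    rw [integral_finsetSum _ fun m _ => i3 n m]
    refine Finset.sum_congr rfl fun m _ => ?_
    rw [← mp_integral (mp01 k n m) h₀.meas3, ← mp_integral (mp12 k m (n ^^^ m)) h₁.meas3,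
      ← mp_integral (mp20 k (n ^^^ m) n) h₂.meas3]
    exact (integral_add ((i0 _ _).add (i1 _ _)) (i2 _ _)).trans
      (congrArg (· + _) (integral_add (i0 _ _) (i1 _ _)))
  have b0 := h₀.sum_sq k (R ×ˢ R) id Function.injective_id
  have b1 := h₁.sum_sq k (R ×ˢ R) (fun x => (x.2, x.1 ^^^ x.2)) (by
    rintro ⟨a, b⟩ ⟨c, d⟩ h
    simp only [Prod.mk.injEq] at h
    obtain ⟨rfl, h⟩ := h
    rw [Nat.xor_left_inj.1 h])
  have b2 := h₂.sum_sq k (R ×ˢ R) (fun x => (x.1 ^^^ x.2, x.1)) (by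
    rintro ⟨a, b⟩ ⟨c, d⟩ h
    simp only [Prod.mk.injEq] at h
    obtain ⟨h, rfl⟩ := h
    rw [Nat.xor_right_inj.1 h])
  simp only [id] at b0 b1 b2
  have s0 : 2 ^ k * ∑ j ∈ Finset.range K, ∑ n ∈ Finset.range N, ∑ m ∈ Finset.range N,
      |formL F₀ F₁ F₂ (k + j + 1) (n, m, n ^^^ m)| ≤
      ∑ j ∈ Finset.range K, ∑ n ∈ Finset.range N, ∑ m ∈ Finset.range N,
      (1 / 2 : ℝ) ^ (j + 1) * ∫ u, |t j n m u| ∂(mu0 k) := by
    simp only [Finset.mul_sum]
    exact Finset.sum_le_sum fun j _ => Finset.sum_le_sum fun n _ => Finset.sum_le_sum fun m _ =>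
      s1 j n m
  refine le_of_mul_le_mul_left ?_ hp
  nlinarith

end main

end Vale.Agent.P075
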